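import Vale.Agent.P240.V.Qr
import Vale.Agent.P240.U.Cnt

/-! P240 V/Cnt (automorphisms of PSU, n odd; auxiliary names end with `_VCnt`). perm_gu, es_conjU: as perm_sg, es_conj in U/Conj; permutation matrices and sign matrices are unitary (gu_iff, al_dg), the determinant is 1 or -1 so mk_TAppU applies. ext_L: the proof of ext_E in U/Cnt, word for word, with hL, hc in place of es_mem, es_conj. -/

namespace Vale.Agent.P240

open Matrix

variable {n : ℕ} {K : Type} [Field K] {σ : RingAut K} {i j : Fin n} {r s : Finset (Fin n)}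
  {φ : ProjGenLinGroup (Fin n) K → ProjGenLinGroup (Fin n) K} {a b : ProjGenLinGroup (Fin n) K}
  {u v w : Fin n → K}

theorem perm_gu (π : Equiv.Perm (Fin n)) : ∃ w ∈ GU n σ,
    GeneralLinearGroup.det w * GeneralLinearGroup.det w = 1 ∧ ∀ s : Finset (Fin n),
      w * sg K s * w⁻¹ = sg K (s.map π.toEmbedding) := by
  have h0 : (Equiv.Perm.permMatrix K π.symm).det ≠ 0 := by
    rw [det_permutation]
    rcases Int.units_eq_one_or (Equiv.Perm.sign π.symm) with h | h <;> rw [h] <;> simp
  refine ⟨GeneralLinearGroup.mkOfDetNeZero _ h0, ?_, ?_, fun s => ?_⟩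
  · rw [gu_iff]
    show ((Equiv.Perm.permMatrix K π.symm).map σ)ᵀ * Equiv.Perm.permMatrix K π.symm = 1
    have h1 : (Equiv.Perm.permMatrix K π.symm).map σ = Equiv.Perm.permMatrix K π.symm := by
      ext a b
      simp only [Equiv.Perm.permMatrix, map_apply, PEquiv.toMatrix_apply]
      split_ifs
      · exact map_one σ
      · exact map_zero σ
    rw [h1, transpose_permMatrix, ← permMatrix_mul, mul_inv_cancel, permMatrix_one]
  · refine Units.ext ?_
    show (Equiv.Perm.permMatrix K π.symm).det * (Equiv.Perm.permMatrix K π.symm).det = 1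
    rw [det_permutation]
    rcases Int.units_eq_one_or (Equiv.Perm.sign π.symm) with h | h <;> rw [h] <;> simp
  · rw [mul_inv_eq_iff_eq_mul]
    refine Units.ext ?_
    rw [Units.val_mul, Units.val_mul, sg_val, sg_val]
    ext a b
    rw [mul_diagonal, diagonal_mul]
    by_cases h : π.symm a = b
    · subst h
      rw [mul_comm]
      simp only [Finset.mem_map_equiv]
    · have h1 : (GeneralLinearGroup.mkOfDetNeZero _ h0 : GL (Fin n) K).val a b = 0 := by
        show Equiv.Perm.permMatrix K π.symm a b = 0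
        simp [Equiv.Perm.permMatrix, PEquiv.toMatrix_apply, h]
      rw [h1, zero_mul, mul_zero]

theorem es_conjU (hn : Odd n) (h : r.card = s.card) : ∃ z ∈ PU n σ, es K r = z * es K s * z⁻¹ := by
  obtain ⟨π, rfl⟩ := Equiv.Perm.exists_map_finset_eq s r h.symm
  obtain ⟨w, hw, hd, he⟩ := perm_gu (K := K) (σ := σ) π
  refine ⟨_, mk_TAppU hn hw hd, ?_⟩
  rw [es, es, ← map_inv, ← map_mul, ← map_mul, he]

theorem into_VCnt {L : Subgroup (ProjGenLinGroup (Fin n) K)} (hL : ∀ s, es K s ∈ L) (hφ : Au L φ)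
    (h : ∀ i, ∃ s, φ (es K {i}) = es K s)
    (r : Finset (Fin n)) : ∃ s, φ (es K r) = es K s := by
  induction r using Finset.induction_on with
  | empty => exact ⟨∅, by rw [es_empty, hφ.one]⟩
  | insert i r hi ih =>
    obtain ⟨a, ha⟩ := h i
    obtain ⟨b, hb⟩ := ih
    have e : insert i r = symmDiff {i} r := by
      rw [Finset.insert_eq, Disjoint.symmDiff_eq_sup (Finset.disjoint_singleton_left.2 hi)]
      rfl
    exact ⟨symmDiff a b, by
      rw [e, ← es_mul, hφ.mul _ (hL _) _ (hL _), ha, hb, es_mul]⟩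

theorem onto_VCnt {L : Subgroup (ProjGenLinGroup (Fin n) K)} (hL : ∀ s, es K s ∈ L) (hφ : Au L φ)
    (h : ∀ i, ∃ s, φ (es K {i}) = es K s)
    (s : Finset (Fin n)) : ∃ r, φ (es K r) = es K s := by
  have h1 : Set.MapsTo φ (Set.range (es (n := n) K)) (Set.range (es (n := n) K)) := by
    rintro _ ⟨r, rfl⟩
    obtain ⟨a, ha⟩ := into_VCnt hL hφ h r
    exact ⟨a, ha.symm⟩
  have h2 : Set.InjOn φ (Set.range (es (n := n) K)) := by
    rintro _ ⟨a, rfl⟩ _ ⟨b, rfl⟩ e
    exact hφ.inj _ (hL _) _ (hL _) e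
  obtain ⟨_, ⟨r, rfl⟩, e⟩ :=
    (((Set.finite_range _).injOn_iff_bijOn_of_mapsTo h1).1 h2).surjOn ⟨s, rfl⟩
  exact ⟨r, e⟩

theorem ext_L (h2 : (2 : K) ≠ 0) (hn : Odd n) (h3 : 3 ≤ n) {L : Subgroup (ProjGenLinGroup (Fin n) K)}
    (hL : ∀ s, es K s ∈ L)
    (hc : ∀ r s : Finset (Fin n), r.card = s.card → ∃ z ∈ L, es K r = z * es K s * z⁻¹)
    (hφ : Au L φ) (h : ∀ i, ∃ s, φ (es K {i}) = es K s) :
    ∃ π : Equiv.Perm (Fin n), ∀ i, φ (es K {i}) = es K {π i} := by
  have hk : ∀ i, ∃ k, φ (es K {i}) = es K {k} := fun i => by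
    obtain ⟨s, hs⟩ := h i
    have h1 : ∀ t : Finset (Fin n), ∃ k, t.card = s.card → φ (es K {k}) = es K t := fun t => by
      by_cases ht : t.card = s.card
      · obtain ⟨z, hz, e⟩ := hc t s ht
        obtain ⟨y, hy, rfl⟩ := hφ.surj z hz
        obtain ⟨r, hr⟩ := onto_VCnt hL hφ h t
        have m1 := L.mul_mem hy (hL {i})
        have m2 := L.inv_mem hy
        have e1 : es K r = y * es K {i} * y⁻¹ :=
          hφ.inj _ (hL r) _ (L.mul_mem m1 m2) (by
            rw [hφ.mul _ m1 _ m2, hφ.mul _ hy _ (hL {i}), hφ.inv hy, hs, hr, e])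
        have e2 := es_card h2 e1
        rw [Finset.card_singleton] at e2
        obtain ⟨k, e3⟩ := one_UCnt (K := K) e2
        exact ⟨k, fun _ => e3 ▸ hr⟩
      · exact ⟨i, fun a => (ht a).elim⟩
    choose g hg using h1
    have hcc : (Finset.powersetCard s.card (Finset.univ : Finset (Fin n))).card ≤
        (Finset.univ : Finset (Fin n)).card := by
      refine Finset.card_le_card_of_injOn g (fun _ _ => Finset.mem_univ _) fun a ha b hb e => ?_
      have ha' := (Finset.mem_powersetCard.1 ha).2
      have hb' := (Finset.mem_powersetCard.1 hb).2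
      have e1 : es K a = es K b := by rw [← hg a ha', ← hg b hb', e]
      refine (es_inj h2 e1).resolve_right fun e2 => ?_
      have e3 := Finset.card_add_card_compl b
      rw [← e2, Fintype.card_fin, ha', hb'] at e3
      obtain ⟨m, hm⟩ := hn
      omega
    rw [Finset.card_powersetCard, Finset.card_univ, Fintype.card_fin] at hcc
    have hne : es K s ≠ es K (∅ : Finset (Fin n)) := fun e => by
      have e1 : es K {i} = es K (∅ : Finset (Fin n)) :=
        hφ.inj _ (hL _) _ (hL _) (by rw [hs, e, es_empty, hφ.one])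
      rcases es_inj h2 e1 with e2 | e2
      · exact Finset.singleton_ne_empty i e2
      · have e3 := congrArg Finset.card e2
        rw [Finset.card_singleton, Finset.compl_empty, Finset.card_univ, Fintype.card_fin] at e3
        omega
    have h0 : 0 < s.card := Finset.card_pos.2 (Finset.nonempty_iff_ne_empty.2 fun e => hne (by rw [e]))
    have h4 : 0 < sᶜ.card := Finset.card_pos.2 (Finset.nonempty_iff_ne_empty.2 fun e =>
      hne (by rw [← es_compl s, e]))
    have e3 := Finset.card_add_card_compl s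
    rw [Fintype.card_fin] at e3
    obtain ⟨k, e4⟩ := one_UCnt (K := K) (binom hcc h0 (by omega))
    exact ⟨k, hs.trans e4⟩
  choose f hf using hk
  have hi : Function.Injective f := fun a b e => by
    have e1 : es K {a} = es K {b} :=
      hφ.inj _ (hL _) _ (hL _) (by rw [hf, hf, e])
    rcases es_inj h2 e1 with e2 | e2
    · exact Finset.singleton_injective e2
    · have e3 := Finset.card_add_card_compl ({b} : Finset (Fin n))
      rw [← e2, Finset.card_singleton, Finset.card_singleton, Fintype.card_fin] at e3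
      omega
  exact ⟨Equiv.ofBijective f (Finite.injective_iff_bijective.1 hi), hf⟩

end Vale.Agent.P240
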