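import Vale.Agent.P240.V.Qr
import Vale.Agent.P240.U.DiagP

/-! P240 V/Fix (automorphisms of PSU, n odd; auxiliary names end with `_VFix`). Plan: h for a = es {k} (qr_es, qr_mem, al_dg) and lift_comm show that y commutes with all sg {k}, so y is diagonal. For l with l * σ l ≠ -1 take the reflection g in v = e 0 + l e 1 (qr_gl with β = hm v v / 2, qr_mem): y τ(g) y⁻¹ = c g, the entry (2, 2) gives c = 1, the entry (0, 0) gives τ (β⁻¹) = β⁻¹, the entry (1, 0) gives y 1 1 * τ l = y 0 0 * l; l = 1 gives y 1 1 = y 0 0. If l * σ l = -1 then one of l + 1, l - 1 has norm different from -1. -/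

namespace Vale.Agent.P240

open Matrix

variable {n : ℕ} {K : Type} [Field K] {σ : RingAut K} {i j : Fin n} {r s : Finset (Fin n)}
  {φ : ProjGenLinGroup (Fin n) K → ProjGenLinGroup (Fin n) K} {a b : ProjGenLinGroup (Fin n) K}
  {u v w : Fin n → K}

theorem diag_VFix [Finite K] (h2 : (2 : K) ≠ 0) (hn : Odd n) (hσ : σ * σ = 1) {Y : GL (Fin n) K}
    {τ : RingAut K} (h : ∀ a ∈ PU n σ,
      ProjGenLinGroup.mk Y * act n K (τ, 1) a * (ProjGenLinGroup.mk Y)⁻¹ = a) (i j : Fin n)
    (hij : i ≠ j) : (Y : Matrix (Fin n) (Fin n) K) i j = 0 := by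
  have h1 := h _ (qr_mem hn hσ (qr_es h2 j))
  have e : al τ 1 (sg K {j}) = sg K {j} := al_dg τ 1 fun k => by
    split_ifs
    · exact Or.inr rfl
    · exact Or.inl rfl
  rw [es, act_mk, e, mul_inv_eq_iff_eq_mul] at h1
  have sq : sg K {j} * sg K {j} = 1 := Units.ext (by
    rw [Units.val_mul, sg_val, diagonal_mul_diagonal, Units.val_one, ← diagonal_one]
    refine congrArg diagonal (funext fun k => ?_)
    split_ifs <;> simp)
  have h3 := congrArg (fun g : GL (Fin n) K => (g : Matrix (Fin n) (Fin n) K) i j)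
    (lift_comm hn sq h1.symm)
  simp only [Units.val_mul, sg_val, diagonal_mul, mul_diagonal, Finset.mem_singleton, if_neg hij,
    if_true, Units.val_one, Units.val_neg, one_mul] at h3
  exact (mul_eq_zero.1 (by linear_combination h3)).resolve_left h2

theorem key_VFix [Finite K] (h2 : (2 : K) ≠ 0) (hn : Odd n) (hσ : σ * σ = 1) {Y : GL (Fin n) K}
    {τ : RingAut K} (h : ∀ a ∈ PU n σ,
      ProjGenLinGroup.mk Y * act n K (τ, 1) a * (ProjGenLinGroup.mk Y)⁻¹ = a) {d : Fin n → K}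
    (hY : (Y : Matrix (Fin n) (Fin n) K) = diagonal d) (hd : ∀ i, d i ≠ 0) {k : Fin n}
    (hij : i ≠ j) (hik : i ≠ k) (hjk : j ≠ k) {l : K} (hl : 1 + l * σ l ≠ 0) :
    d j * τ l = l * d i := by
  obtain ⟨v, hv⟩ : ∃ v : Fin n → K, v = Pi.single i 1 + Pi.single j l := ⟨_, rfl⟩
  have vi : v i = 1 := by simp [hv, hij]
  have vj : v j = l := by simp [hv, hij.symm]
  have vk : v k = 0 := by simp [hv, hik.symm, hjk.symm]
  have e : hm σ v v = 1 + l * σ l := by
    rw [hm]
    nth_rewrite 1 [hv]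
    rw [add_dotProduct, single_dotProduct, single_dotProduct, vi, vj, map_one, one_mul]
  have h0 : hm σ v v / 2 ≠ 0 := div_ne_zero (e ▸ hl) h2
  have h1 : σ (hm σ v v / 2) = hm σ v v / 2 := by rw [map_div₀, hm_symm hσ, map_ofNat]
  have h3 : hm σ v v / 2 + σ (hm σ v v / 2) = hm σ v v := by
    rw [h1]
    field_simp
    ring
  obtain ⟨g, -, hg⟩ := qr_gl hσ h0 h3
  have h4 := h _ (qr_mem hn hσ ⟨fun h5 => one_ne_zero (vi.symm.trans (congrFun h5 i)), _, g, h0,
    h3, fun _ => h1, hg, rfl⟩)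
  rw [act_mk, mul_inv_eq_iff_eq_mul, ← map_mul, ← map_mul, ProjGenLinGroup.mk_eq_mk_iff] at h4
  obtain ⟨u, hu⟩ := h4
  have hγ : (hm σ v v / 2)⁻¹ ≠ 0 := inv_ne_zero h0
  generalize (hm σ v v / 2)⁻¹ = γ at hg hγ
  have en : ∀ p q, d p * τ ((g : Matrix (Fin n) (Fin n) K) p q) * u =
      (g : Matrix (Fin n) (Fin n) K) p q * d q := fun p q => by
    have h5 := congrArg (fun g : GL (Fin n) K => (g : Matrix (Fin n) (Fin n) K) p q) hu
    simp only [Units.val_mul, hY, mul_diagonal] at h5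
    rw [← h5, al, if_pos rfl]
    simp [GeneralLinearGroup.scalar, Matrix.scalar_apply, mul_diagonal, diagonal_mul]
  have e2 := en k k
  have e0 := en i i
  have e1 := en j i
  simp only [hg, Matrix.sub_apply, Matrix.smul_apply, vecMulVec_apply, vi, vj, vk, one_apply_eq,
    one_apply_ne hij.symm, smul_eq_mul, map_sub, map_mul, map_one, map_zero, mul_one, mul_zero,
    sub_zero, one_mul] at e2 e0 e1
  have hu1 : (u : K) = 1 := mul_left_cancel₀ (hd k) (by rw [e2, mul_one])
  rw [hu1] at e0 e1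
  have h6 : τ γ = γ := mul_left_cancel₀ (hd i) (by linear_combination -e0)
  rw [h6] at e1
  exact mul_left_cancel₀ hγ (by linear_combination -e1)

theorem fix_U [Finite K] (h2 : (2 : K) ≠ 0) (hn : Odd n) (h3 : 3 ≤ n) (hσ : σ * σ = 1)
    {y : ProjGenLinGroup (Fin n) K} {τ : RingAut K}
    (h : ∀ a ∈ PU n σ, y * act n K (τ, 1) a * y⁻¹ = a) : τ = 1 := by
  obtain ⟨Y, rfl⟩ := ProjGenLinGroup.mk_surjective y
  have hY : (Y : Matrix (Fin n) (Fin n) K) =
      diagonal fun i => (Y : Matrix (Fin n) (Fin n) K) i i := by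
    ext i j
    by_cases hij : i = j
    · rw [hij, diagonal_apply_eq]
    · rw [diagonal_apply_ne _ hij, diag_VFix h2 hn hσ h i j hij]
  have hd : ∀ i, (Y : Matrix (Fin n) (Fin n) K) i i ≠ 0 := fun i => by
    have h1 := Y.det_ne_zero
    rw [hY, det_diagonal] at h1
    exact Finset.prod_ne_zero_iff.1 h1 i (Finset.mem_univ i)
  have key := fun l (hl : 1 + l * σ l ≠ 0) => key_VFix h2 hn hσ h hY hd (i := ⟨0, by omega⟩)
    (j := ⟨1, by omega⟩) (k := ⟨2, by omega⟩) (by simp) (by simp) (by simp) hl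
  have h1 := key 1 (by rwa [map_one, one_mul, one_add_one_eq_two])
  rw [map_one, mul_one, one_mul] at h1
  have h4 : ∀ l, 1 + l * σ l ≠ 0 → τ l = l := fun l hl =>
    mul_left_cancel₀ (hd _) ((key l hl).trans (by rw [h1, mul_comm]))
  ext l
  show τ l = l
  by_cases a1 : 1 + l * σ l = 0
  · by_cases a2 : 1 + (l + 1) * σ (l + 1) = 0
    · have h5 := h4 (l - 1) fun a3 => h2 (by
        rw [map_add, map_one] at a2
        rw [map_sub, map_one] at a3
        linear_combination a2 + a3 - 2 * a1)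
      rwa [map_sub, map_one, sub_left_inj] at h5
    · have h5 := h4 _ a2
      rwa [map_add, map_one, add_left_inj] at h5
  · exact h4 l a1

end Vale.Agent.P240
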