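import Vale.Agent.P240.V.Defs

/-! P240 V/Ftpg (automorphisms of PSU, n odd; auxiliary names end with `_VFtpg`). Plan: θ v k = 0 iff v k = 0 (test against e k). For i ≠ j put f i j l = θ x j / θ x i with x = e i + l e j. For any v with v i ≠ 0, θ v j = f i j (v j / v i) * θ v i: both v and x (l = v j / v i) are orthogonal to w = -σ l e i + e j, and θ w is supported on i, j with θ w j ≠ 0. With v = e i + a e j + a b e k this gives f i k (a b) = f i j a * f j k b. As in U/Fld: f i j 1 = d j / d i with d 0 = 1, and f i j l = (d j / d i) * τ l for one multiplicative τ with τ 1 = 1, τ 0 = 0; so θ v is proportional to (d i * τ (v i)). Orthogonality of (x, y, -(x + y)) and (1, 1, 1) in three places gives N1 τ x + N2 τ y + N3 τ (-(x + y)) = 0 with Ni = d i * σ (d i); the cases (1, -1, 0) give τ (-1) = -1 (else 2 N = 0) and N1 = N2 = N3, then additivity. RingHom.mk', RingEquiv.ofBijective. -/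

namespace Vale.Agent.P240

open Matrix

variable {n : ℕ} {K : Type} [Field K] {σ : RingAut K} {i j : Fin n} {r s : Finset (Fin n)}
  {φ : ProjGenLinGroup (Fin n) K → ProjGenLinGroup (Fin n) K} {a b : ProjGenLinGroup (Fin n) K}
  {u v w : Fin n → K}

theorem sum3_VFtpg {f : Fin n → K} {k : Fin n} (h1 : i ≠ j) (h2 : i ≠ k) (h3 : j ≠ k)
    (h : ∀ m, m ≠ i → m ≠ j → m ≠ k → f m = 0) : ∑ m, f m = f i + f j + f k := by
  rw [← Finset.sum_subset (Finset.subset_univ {i, j, k}) fun m _ hm => by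
    simp only [Finset.mem_insert, Finset.mem_singleton, not_or] at hm
    exact h m hm.1 hm.2.1 hm.2.2, Finset.sum_insert (by simp [h1, h2]), Finset.sum_pair h3,
    add_assoc]

theorem zero_VFtpg {θ : (Fin n → K) → Fin n → K} (h0 : ∀ v, v ≠ 0 → θ v ≠ 0)
    (h1 : ∀ v w, v ≠ 0 → w ≠ 0 → (hm σ v w = 0 ↔ hm σ (θ v) (θ w) = 0))
    (hE : ∀ i, ∃ c : K, θ (Pi.single i 1) = c • (Pi.single i 1 : Fin n → K)) (hv : v ≠ 0)
    (k : Fin n) : θ v k = 0 ↔ v k = 0 := by
  obtain ⟨c, hc⟩ := hE k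
  have h2 : (Pi.single k 1 : Fin n → K) ≠ 0 := fun h => by simpa using congrFun h k
  have h3 : c ≠ 0 := fun h => h0 _ h2 (by rw [hc, h, zero_smul])
  have h4 : ∀ (u : Fin n → K) (a : K), hm σ u (a • (Pi.single k 1 : Fin n → K)) = u k * σ a :=
    fun u a => by
      rw [hm, dotProduct, Fintype.sum_eq_single k fun m hm => by simp [hm]]
      simp
  have h5 := h1 v _ hv h2
  rw [hc, h4, ← one_smul K (Pi.single k 1 : Fin n → K), h4] at h5
  simpa [h3] using h5.symm

theorem key_VFtpg (hσ : σ * σ = 1) {θ : (Fin n → K) → Fin n → K}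
    (h1 : ∀ v w, v ≠ 0 → w ≠ 0 → (hm σ v w = 0 ↔ hm σ (θ v) (θ w) = 0))
    (hz : ∀ v, v ≠ 0 → ∀ k, θ v k = 0 ↔ v k = 0) (hij : i ≠ j) {l : K} (hu : u ≠ 0) (hv : v ≠ 0)
    (hu' : u j = l * u i) (hv' : v j = l * v i) : θ v j * θ u i = θ u j * θ v i := by
  have hs : σ (σ l) = l := by simpa using congrArg (fun ρ : RingAut K => ρ l) hσ
  set w : Fin n → K := fun m => if m = j then 1 else if m = i then -σ l else 0 with hw
  have h2 : w j = 1 := if_pos rfl
  have h3 : w i = -σ l := (if_neg hij).trans (if_pos rfl)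
  have h4 : w ≠ 0 := fun h => one_ne_zero (h2.symm.trans (congrFun h j))
  have h5 : ∀ m, m ≠ i ∧ m ≠ j → w m = 0 := fun m hm => (if_neg hm.2).trans (if_neg hm.1)
  have h6 : ∀ x : Fin n → K, x ≠ 0 → x j = l * x i →
      θ x i * σ (θ w i) + θ x j * σ (θ w j) = 0 := fun x hx hx' => by
    have h7 := (h1 x w hx h4).1 (by
      rw [hm, dotProduct, Fintype.sum_eq_add i j hij fun m hm => by simp [h5 m hm], h2, h3,
        map_neg, hs, map_one, hx']
      ring)
    rwa [hm, dotProduct, Fintype.sum_eq_add i j hij fun m hm => by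
      simp [(hz w h4 m).2 (h5 m hm)]] at h7
  have h8 : σ (θ w j) ≠ 0 := by simp [hz w h4, h2]
  refine mul_right_cancel₀ h8 ?_
  linear_combination θ u i * h6 v hv hv' - θ v i * h6 u hu hu'

theorem ftpg [Finite K] (h2 : (2 : K) ≠ 0) (h3 : 3 ≤ n) (hσ : σ * σ = 1)
    {θ : (Fin n → K) → Fin n → K} (h0 : ∀ v, v ≠ 0 → θ v ≠ 0)
    (h1 : ∀ v w, v ≠ 0 → w ≠ 0 → (hm σ v w = 0 ↔ hm σ (θ v) (θ w) = 0))
    (hE : ∀ i, ∃ c : K, θ (Pi.single i 1) = c • (Pi.single i 1 : Fin n → K)) :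
    ∃ (d : Fin n → Kˣ) (τ : RingAut K), (∀ i, (d i : K) * σ (d i) = 1) ∧
      ∀ v, v ≠ 0 → ∃ c : K, c ≠ 0 ∧ θ v = c • fun i => d i * τ (v i) := by
  have hz := fun v (hv : v ≠ 0) => zero_VFtpg h0 h1 hE hv
  obtain ⟨p, q, t, hpq, hpt, hqt⟩ : ∃ p q t : Fin n, p ≠ q ∧ p ≠ t ∧ q ≠ t :=
    ⟨⟨0, by omega⟩, ⟨1, by omega⟩, ⟨2, by omega⟩, by simp, by simp, by simp⟩
  have ne : ∀ (v : Fin n → K) (i : Fin n), v i ≠ 0 → v ≠ 0 := fun v i h h' => h (congrFun h' i)
  have h11 : (1 : Fin n → K) ≠ 0 := ne _ p one_ne_zero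
  have hu : ∀ i, θ 1 i ≠ 0 := fun i h => one_ne_zero ((hz _ h11 i).1 h)
  obtain ⟨g, g1, g0, hg⟩ : ∃ g : Fin n → Fin n → K → K, (∀ i j, g i j 1 = 1) ∧
      (∀ i j l, i ≠ j → (g i j l = 0 ↔ l = 0)) ∧ ∀ i j l v, i ≠ j → v i ≠ 0 → v j = l * v i →
        θ v j / θ 1 j = g i j l * (θ v i / θ 1 i) := by
    have hy : ∀ (i : Fin n) (l : K), (fun m => if m = i then 1 else l : Fin n → K) ≠ 0 :=
      fun i l => ne _ i (by simp)
    have hy' : ∀ (i : Fin n) (l : K), θ (fun m => if m = i then 1 else l) i ≠ 0 :=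
      fun i l h => by simpa using (hz _ (hy i l) i).1 h
    refine ⟨fun i j l => θ (fun m => if m = i then 1 else l) j / θ 1 j /
      (θ (fun m => if m = i then 1 else l) i / θ 1 i), fun i j => ?_, fun i j l h => ?_,
      fun i j l v h hv hv' => ?_⟩
    · have e : (fun m => if m = i then 1 else 1 : Fin n → K) = 1 := funext fun m => ite_self _
      simp only [e, div_self (hu _), div_one]
    · simp [hu, hy', hz _ (hy i l), h.symm]
    · have e := key_VFtpg hσ h1 hz h (hy i l) (ne v i hv) (l := l) (by simp [h.symm]) hv'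
      have e1 := hu i
      have e2 := hu j
      have e3 := hy' i l
      field_simp
      linear_combination e
  have tri : ∀ i j k a b, i ≠ j → i ≠ k → j ≠ k → a ≠ 0 → g i k (b * a) = g i j a * g j k b :=
    fun i j k a b e1 e2 e3 ha => by
      set v : Fin n → K := fun m => if m = i then 1 else if m = j then a else b * a with hv
      have v1 : v i = 1 := if_pos rfl
      have v2 : v j = a := (if_neg e1.symm).trans (if_pos rfl)
      have v3 : v k = b * a := (if_neg e2.symm).trans (if_neg e3.symm)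
      have a1 := hg i k (b * a) v e2 (v1 ▸ one_ne_zero) (by rw [v1, v3, mul_one])
      have a2 := hg i j a v e1 (v1 ▸ one_ne_zero) (by rw [v1, v2, mul_one])
      have a3 := hg j k b v e3 (v2 ▸ ha) (by rw [v2, v3])
      refine mul_right_cancel₀ (div_ne_zero (fun h => one_ne_zero (v1.symm.trans
        ((hz v (ne v i (v1 ▸ one_ne_zero)) i).1 h))) (hu i)) ?_
      rw [← a1, a3, a2]
      ring
  have hA : ∀ i j k, i ≠ j → i ≠ k → g i j = g i k := fun i j k e1 e2 => funext fun a => by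
    rcases eq_or_ne j k with rfl | e3
    · rfl
    rcases eq_or_ne a 0 with rfl | ha
    · rw [(g0 _ _ _ e1).2 rfl, (g0 _ _ _ e2).2 rfl]
    · simpa only [one_mul, g1, mul_one] using (tri i j k a 1 e1 e2 e3 ha).symm
  have hB : ∀ i j k, i ≠ k → j ≠ k → g i k = g j k := fun i j k e2 e3 => funext fun b => by
    rcases eq_or_ne i j with rfl | e1
    · rfl
    · simpa only [one_mul, g1, mul_one] using tri i j k 1 b e1 e2 e3 one_ne_zero
  have hC : ∀ i j, i ≠ j → g i j = g p q := fun i j e => by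
    rcases eq_or_ne i q with rfl | e1
    · rw [hA i j t e hqt, hB i p t hqt hpt, hA p t i hpt hpq]
    · rw [hA i j q e e1, hB i p q e1 hpq]
  have t1 := g1 p q
  have t0 := fun l => g0 p q l hpq
  have tm : ∀ a b, g p q (a * b) = g p q a * g p q b := fun a b => by
    rcases eq_or_ne b 0 with rfl | hb
    · rw [mul_zero, (t0 0).2 rfl, mul_zero]
    · rw [← hC p t hpt, tri p q t b a hpq hpt hqt hb, hC q t hqt, hC p t hpt, mul_comm]
  have hP : ∀ v, v ≠ 0 → ∃ c : K, c ≠ 0 ∧ ∀ j, θ v j = c * (θ 1 j * g p q (v j)) := fun v hv => by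
    obtain ⟨i, hi⟩ := Function.ne_iff.1 hv
    have a1 : g p q (v i) ≠ 0 := fun h => hi ((t0 _).1 h)
    refine ⟨θ v i / θ 1 i / g p q (v i), div_ne_zero (div_ne_zero
      (fun h => hi ((hz v hv i).1 h)) (hu i)) a1, fun j => ?_⟩
    have a2 := hu i
    rcases eq_or_ne i j with rfl | e
    · field_simp
    · have a3 := hg i j (v j / v i) v e hi (div_mul_cancel₀ _ hi).symm
      have a4 := tm (v j / v i) (v i)
      rw [div_mul_cancel₀ _ hi] at a4
      rw [hC i j e, div_eq_iff (hu j)] at a3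
      rw [a3, a4]
      field_simp
  generalize g p q = τ at t1 t0 tm hP
  have hS : ∀ v : Fin n → K, ∑ m, v m = 0 → ∑ m, θ 1 m * σ (θ 1 m) * τ (v m) = 0 := fun v h => by
    rcases eq_or_ne v 0 with rfl | hv
    · simp [(t0 0).2 rfl]
    obtain ⟨c, hc, e⟩ := hP v hv
    have a1 := (h1 v 1 hv h11).1 (by simpa [hm, dotProduct] using h)
    refine (mul_eq_zero.1 (Eq.trans ?_ a1)).resolve_left hc
    rw [hm, dotProduct, Finset.mul_sum]
    exact Finset.sum_congr rfl fun m _ => by rw [e m]; ring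
  have hN : ∀ i, θ 1 i * σ (θ 1 i) ≠ 0 := fun i => mul_ne_zero (hu i) (by simpa using hu i)
  have h2p : ∀ i j, i ≠ j → θ 1 i * σ (θ 1 i) + θ 1 j * σ (θ 1 j) * τ (-1) = 0 := fun i j e => by
    have a1 := hS (fun m => if m = i then 1 else if m = j then -1 else 0) (by
      rw [Fintype.sum_eq_add i j e fun m hm => by simp [hm.1, hm.2]]
      simp [e.symm])
    rw [Fintype.sum_eq_add i j e fun m hm => by simp [hm.1, hm.2, (t0 0).2 rfl]] at a1
    simpa [e.symm, t1] using a1
  have hm1 : τ (-1) = -1 := by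
    have a1 := tm (-1) (-1)
    rw [neg_one_mul, neg_neg, t1] at a1
    refine (mul_self_eq_one_iff.1 a1.symm).resolve_left fun h => mul_ne_zero h2 (hN p) ?_
    have a2 := h2p p q hpq
    have a3 := h2p p t hpt
    have a4 := h2p q t hqt
    rw [h] at a2 a3 a4
    linear_combination a2 + a3 - a4
  have hN' : ∀ i, θ 1 i * σ (θ 1 i) = θ 1 p * σ (θ 1 p) := fun i => by
    rcases eq_or_ne i p with rfl | e
    · rfl
    · linear_combination h2p i p e - θ 1 p * σ (θ 1 p) * hm1
  have ta : ∀ x y, τ (x + y) = τ x + τ y := fun x y => by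
    have a1 := hS (fun m => if m = p then x else if m = q then y else if m = t then -1 * (x + y)
      else 0) (by
        rw [sum3_VFtpg hpq hpt hqt fun m e1 e2 e3 => by simp [e1, e2, e3]]
        simp [hpq.symm, hpt.symm, hqt.symm])
    rw [sum3_VFtpg hpq hpt hqt fun m e1 e2 e3 => by simp [e1, e2, e3, (t0 0).2 rfl]] at a1
    simp only [if_pos, if_neg hpq.symm, if_neg hpt.symm, if_neg hqt.symm, hN', tm, hm1] at a1
    refine mul_left_cancel₀ (hN p) ?_
    linear_combination -a1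
  let ρ : K →+* K := RingHom.mk' ⟨⟨τ, t1⟩, tm⟩ ta
  refine ⟨fun i => Units.mk0 (θ 1 i / θ 1 p) (div_ne_zero (hu i) (hu p)), RingEquiv.ofBijective ρ
    (Finite.injective_iff_bijective.1 ρ.injective), fun i => ?_, fun v hv => ?_⟩
  · rw [Units.val_mk0, map_div₀, div_mul_div_comm, hN', div_self (hN p)]
  · obtain ⟨c, hc, e⟩ := hP v hv
    refine ⟨c * θ 1 p, mul_ne_zero hc (hu p), funext fun j => (e j).trans ?_⟩
    change _ = c * θ 1 p * (θ 1 j / θ 1 p * τ (v j))
    have a1 := hu p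
    field_simp

end Vale.Agent.P240
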