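import Vale.Agent.P240.V.Wit
import Vale.Agent.P240.U.DiagP
import Vale.Agent.P240.U.Bas

/-! P240 V/Nrm (automorphisms of PSU, n odd; auxiliary names end with `_VNrm`). Plan: diag_P gives y = mk Y (PU ≤ Pr SG; es s is in PU by mk_TAppU and al_dg). The map e to y⁻¹ (φ e) y sends the finite set range es into itself (induction on s with es_mul), injectively, hence onto: mk (Y * sg {k} * Y⁻¹) is in PU for every k. So Y sg {k} Y⁻¹ = c g with g unitary; squaring, c ^ 2 g ^ 2 = 1 and det gives c ^ n = 1 or -1, so (c σ c) ^ 2 = 1 = (c σ c) ^ n, c σ c = 1 and Y sg {k} Y⁻¹ is unitary (gu_iff). Hence H = (σ Y)ᵀ Y commutes with all sg {k}, H is diagonal with σ-fixed nonzero entries, norm_surj gives c i with c i σ (c i) = H i i, and Y * dg c⁻¹ is unitary and conjugates sg s as Y does. -/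

namespace Vale.Agent.P240

open Matrix

variable {n : ℕ} {K : Type} [Field K] {σ : RingAut K} {i j : Fin n} {r s : Finset (Fin n)}
  {φ : ProjGenLinGroup (Fin n) K → ProjGenLinGroup (Fin n) K} {a b : ProjGenLinGroup (Fin n) K}
  {u v w : Fin n → K}

theorem sgU_VNrm (s : Finset (Fin n)) : sg K s ∈ GU n σ :=
  al_dg σ (-1) fun i => by split_ifs <;> simp

theorem sq_VNrm (s : Finset (Fin n)) : sg K s * sg K s = 1 := by
  rw [mul_UBas, symmDiff_self, Finset.bot_eq_empty]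
  refine Units.ext ?_
  rw [sg_val]
  simp

theorem es_memU [Finite K] (hn : Odd n) (s : Finset (Fin n)) : es K s ∈ PU n σ := by
  exact mk_TAppU hn (sgU_VNrm s) (by rw [← map_mul, sq_VNrm, map_one])

theorem sc_VNrm (hn : Odd n) (u : Kˣ) :
    GeneralLinearGroup.scalar (Fin n) u ∈ GU n σ ↔ σ u * u = 1 := by
  rw [gu_iff, sc_UBas]
  have e : ((dg fun _ : Fin n => u : GL (Fin n) K) : Matrix (Fin n) (Fin n) K) =
      diagonal fun _ => (u : K) := rfl
  rw [e, diagonal_map (map_zero σ), diagonal_transpose, diagonal_mul_diagonal, ← diagonal_one,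
    diagonal_eq_diagonal_iff]
  exact ⟨fun h => h ⟨0, hn.pos⟩, fun h _ => h⟩

theorem uni_VNrm (hn : Odd n) {x : GL (Fin n) K} (sq : x * x = 1)
    (h : ProjGenLinGroup.mk x ∈ PU n σ) : x ∈ GU n σ := by
  obtain ⟨g, ⟨hg, hd⟩, e⟩ := h
  obtain ⟨u, rfl⟩ := ProjGenLinGroup.mk_eq_mk_iff.1 e
  have d : GeneralLinearGroup.det g = 1 := hd
  have e1 := congrArg GeneralLinearGroup.det sq
  rw [map_mul, map_mul, d, det_UDiagP, map_one, one_mul] at e1
  have e2 : g * g * GeneralLinearGroup.scalar (Fin n) (u * u) = 1 := by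
    rw [← sq, map_mul, mul_assoc g, mul_assoc g, ← mul_assoc (GeneralLinearGroup.scalar (Fin n) u),
      cen_UDiagP u g, mul_assoc g]
  have e3 : GeneralLinearGroup.scalar (Fin n) (u * u) ∈ GU n σ := by
    rw [eq_inv_of_mul_eq_one_right e2]
    exact (GU n σ).inv_mem ((GU n σ).mul_mem hg hg)
  rw [sc_VNrm hn, Units.val_mul, map_mul] at e3
  have e4 : (u : K) ^ n * (u : K) ^ n = 1 := by
    rw [← Units.val_pow_eq_pow_val, ← Units.val_mul, e1, Units.val_one]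
  have e5 : σ (u : K) ^ n = (u : K) ^ n := by
    rw [← map_pow]
    rcases mul_self_eq_one_iff.1 e4 with h | h <;> simp [h]
  have e6 : (σ (u : K) * u) ^ n = 1 := by rw [mul_pow, e5, e4]
  have e7 : (σ (u : K) * u) ^ 2 = 1 := by rw [← e3]; ring
  obtain ⟨m, hm⟩ := hn
  have e8 : σ (u : K) * u = 1 := by
    rwa [hm, pow_succ, pow_mul, e7, one_pow, one_mul] at e6
  exact (GU n σ).mul_mem hg ((sc_VNrm ⟨m, hm⟩ u).2 e8)

theorem dia_VNrm (h2 : (2 : K) ≠ 0) {H : GL (Fin n) K} (h : ∀ k, H * sg K {k} = sg K {k} * H) :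
    (H : Matrix (Fin n) (Fin n) K) = diagonal (fun i => (H : Matrix (Fin n) (Fin n) K) i i) ∧
      ∀ i, (H : Matrix (Fin n) (Fin n) K) i i ≠ 0 := by
  have e : (H : Matrix (Fin n) (Fin n) K) =
      diagonal (fun i => (H : Matrix (Fin n) (Fin n) K) i i) := by
    ext i k
    by_cases hik : i = k
    · rw [hik, diagonal_apply_eq]
    · rw [diagonal_apply_ne _ hik]
      have h1 := congrArg (fun x : GL (Fin n) K => (x : Matrix (Fin n) (Fin n) K) i k) (h k)
      simp only [Units.val_mul, sg_val, mul_diagonal, diagonal_mul, Finset.mem_singleton, hik,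
        if_true, if_false, Units.val_neg, Units.val_one] at h1
      refine (mul_eq_zero.1 (?_ : 2 * (H : Matrix (Fin n) (Fin n) K) i k = 0)).resolve_left h2
      linear_combination -h1
  refine ⟨e, fun i hi => ?_⟩
  have h1 : (H : Matrix (Fin n) (Fin n) K).det ≠ 0 := H.det_ne_zero
  rw [e, det_diagonal] at h1
  exact h1 (Finset.prod_eq_zero (Finset.mem_univ i) hi)

theorem fix_VNrm [Finite K] (h2 : (2 : K) ≠ 0) (hσ : σ * σ = 1) (h1 : σ ≠ 1) {Y : GL (Fin n) K}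
    (h : ∀ k, Y * sg K {k} * Y⁻¹ ∈ GU n σ) : ∃ d : Fin n → Kˣ, Y * dg d ∈ GU n σ := by
  have hc : ∀ k, (al σ (-1) Y)⁻¹ * Y * sg K {k} = sg K {k} * ((al σ (-1) Y)⁻¹ * Y) := by
    intro k
    have a1 : al σ (-1) (Y * sg K {k} * Y⁻¹) = Y * sg K {k} * Y⁻¹ := h k
    have a2 : al σ (-1) (sg K {k}) = sg K {k} := sgU_VNrm {k}
    rw [al_mul, al_mul, al_inv, a2] at a1
    calc (al σ (-1) Y)⁻¹ * Y * sg K {k} = (al σ (-1) Y)⁻¹ * (Y * sg K {k} * Y⁻¹) * Y := by group
      _ = sg K {k} * ((al σ (-1) Y)⁻¹ * Y) := by rw [← a1]; group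
  obtain ⟨e, hne⟩ := dia_VNrm h2 hc
  have hv : (((al σ (-1) Y)⁻¹ * Y : GL (Fin n) K) : Matrix (Fin n) (Fin n) K) =
      ((Y : Matrix (Fin n) (Fin n) K).map σ)ᵀ * (Y : Matrix (Fin n) (Fin n) K) := by
    rw [neg_TAct]
    rfl
  rw [hv] at e hne
  have hσ' : ∀ t : K, σ (σ t) = t := fun t => congrArg (fun τ : RingAut K => τ t) hσ
  have hf : ∀ i, ∃ c : K, c * σ c =
      (((Y : Matrix (Fin n) (Fin n) K).map σ)ᵀ * (Y : Matrix (Fin n) (Fin n) K)) i i := by
    intro i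
    refine norm_surj hσ h1 ?_
    simp only [mul_apply, transpose_apply, map_apply, map_sum, map_mul, hσ']
    exact Finset.sum_congr rfl fun _ _ => mul_comm _ _
  choose c hcc using hf
  have c0 : ∀ i, c i ≠ 0 := fun i hi => hne i (by rw [← hcc, hi, zero_mul])
  refine ⟨fun i => (Units.mk0 (c i) (c0 i))⁻¹, gu_iff.2 ?_⟩
  have e1 : ((dg fun i => (Units.mk0 (c i) (c0 i))⁻¹ : GL (Fin n) K) : Matrix (Fin n) (Fin n) K) =
      diagonal fun i => (c i)⁻¹ := rfl
  rw [Units.val_mul, e1, Matrix.map_mul, transpose_mul, diagonal_map (map_zero σ),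
    diagonal_transpose, Matrix.mul_assoc, ← Matrix.mul_assoc _ (Y : Matrix (Fin n) (Fin n) K), e,
    diagonal_mul_diagonal, diagonal_mul_diagonal, ← diagonal_one, diagonal_eq_diagonal_iff]
  intro i
  have s0 : σ (c i) ≠ 0 := (map_ne_zero σ).2 (c0 i)
  have c1 := c0 i
  rw [← hcc, map_inv₀]
  field_simp

theorem diag_U [Finite K] (h2 : (2 : K) ≠ 0) (hn : Odd n) (hσ : σ * σ = 1) (h1 : σ ≠ 1)
    (hφ : Au (PU n σ) φ) : ∃ y ∈ GU n σ, ∀ i, ∃ s,
      φ (es K {i}) = ProjGenLinGroup.mk y * es K s * (ProjGenLinGroup.mk y)⁻¹ := by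
  have hle : PU n σ ≤ Pr (SG n K) := Subgroup.map_mono inf_le_right
  obtain ⟨y, hy⟩ := diag_P h2 hn (fun s : Finset (Fin n) => φ (es K s))
    (fun s => hle (hφ.mem _ (es_memU hn s)))
    (fun s => by rw [← hφ.mul _ (es_memU hn s) _ (es_memU hn s), es_sq, hφ.one])
    (fun r s => by
      rw [← hφ.mul _ (es_memU hn r) _ (es_memU hn s), ← hφ.mul _ (es_memU hn s) _ (es_memU hn r),
        es_comm])
  obtain ⟨Y, rfl⟩ := ProjGenLinGroup.mk_surjective y
  have hm : Set.MapsTo (fun e => (ProjGenLinGroup.mk Y)⁻¹ * φ e * ProjGenLinGroup.mk Y)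
      (Set.range (es (n := n) K)) (Set.range (es (n := n) K)) := by
    rintro _ ⟨s, rfl⟩
    obtain ⟨r, hr⟩ := hy s
    refine ⟨r, ?_⟩
    simp only [hr]
    group
  have hi : Set.InjOn (fun e => (ProjGenLinGroup.mk Y)⁻¹ * φ e * ProjGenLinGroup.mk Y)
      (Set.range (es (n := n) K)) := by
    rintro _ ⟨s, rfl⟩ _ ⟨r, rfl⟩ e
    exact hφ.inj _ (es_memU hn s) _ (es_memU hn r) (mul_left_cancel (mul_right_cancel e))
  have hb := ((Set.finite_range (es (n := n) K)).injOn_iff_bijOn_of_mapsTo hm).1 hi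
  have hU : ∀ k, Y * sg K {k} * Y⁻¹ ∈ GU n σ := by
    intro k
    refine uni_VNrm hn ?_ ?_
    · calc Y * sg K {k} * Y⁻¹ * (Y * sg K {k} * Y⁻¹) = Y * (sg K {k} * sg K {k}) * Y⁻¹ := by group
        _ = 1 := by rw [sq_VNrm, mul_one, mul_inv_cancel]
    · obtain ⟨_, ⟨s, rfl⟩, e⟩ := hb.surjOn ⟨{k}, rfl⟩
      have e' : ProjGenLinGroup.mk (Y * sg K {k} * Y⁻¹) = φ (es K s) := by
        have e1 : ProjGenLinGroup.mk (sg K {k}) =
            (ProjGenLinGroup.mk Y)⁻¹ * φ (es K s) * ProjGenLinGroup.mk Y := e.symm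
        rw [map_mul, map_mul, map_inv, e1]
        group
      rw [e']
      exact hφ.mem _ (es_memU hn s)
  obtain ⟨d, hd⟩ := fix_VNrm h2 hσ h1 hU
  refine ⟨Y * dg d, hd, fun i => ?_⟩
  obtain ⟨s, hs⟩ := hy {i}
  refine ⟨s, hs.trans ?_⟩
  have c1 : dg d * sg K s = sg K s * dg d := by rw [sg, dg_mul, dg_mul, mul_comm]
  have c2 : Y * dg d * sg K s * (Y * dg d)⁻¹ = Y * sg K s * Y⁻¹ := by
    rw [mul_assoc Y, c1]
    group
  rw [es, ← map_inv, ← map_inv, ← map_mul, ← map_mul, ← map_mul, ← map_mul, c2]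

end Vale.Agent.P240
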