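import Vale.Agent.P240.V.Map
import Vale.Agent.P240.V.Ftpg
import Vale.Agent.P240.V.Nrm
import Vale.Agent.P240.V.Cnt
import Vale.Agent.P240.V.Fix
import Vale.Agent.P240.U.Psl

/-! P240 V/Main: every automorphism of PSU (n odd) is diagonal and field. -/

namespace Vale.Agent.P240

open Matrix

variable {n : ℕ} {K : Type} [Field K] [Finite K] {σ : RingAut K}
  {φ : ProjGenLinGroup (Fin n) K → ProjGenLinGroup (Fin n) K}

/-- `φ` is a standard automorphism on PSU. -/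
def StdU (σ : RingAut K) (φ : ProjGenLinGroup (Fin n) K → ProjGenLinGroup (Fin n) K) : Prop :=
  ∃ y ∈ Pr (GU n σ), ∃ τ : RingAut K, ∀ a ∈ PU n σ, φ a = y * act n K (τ, 1) a * y⁻¹

omit [Finite K] in
theorem stdU_conj {z : ProjGenLinGroup (Fin n) K} (hz : z ∈ Pr (GU n σ))
    (h : StdU σ fun a => MulAut.conj z (φ a)) : StdU σ φ := by
  obtain ⟨y, hy, q, h⟩ := h
  refine ⟨z⁻¹ * y, mul_mem (inv_mem hz) hy, q, fun a ha => ?_⟩
  have h1 : z * φ a * z⁻¹ = _ := h a ha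
  calc φ a = z⁻¹ * (z * φ a * z⁻¹) * z := by group
    _ = _ := by rw [h1]; group

omit [Finite K] in
theorem conj_mem_VMain {z : ProjGenLinGroup (Fin n) K} (hz : z ∈ Pr (GU n σ))
    (a : ProjGenLinGroup (Fin n) K) (ha : a ∈ PU n σ) : z * a * z⁻¹ ∈ PU n σ := by
  obtain ⟨g, hg, rfl⟩ := ha
  obtain ⟨w, hw, rfl⟩ := hz
  refine ⟨w * g * w⁻¹, ⟨(GU n σ).mul_mem ((GU n σ).mul_mem hw hg.1) ((GU n σ).inv_mem hw),
    MonoidHom.mem_ker.2 ?_⟩, by simp only [map_mul, map_inv]⟩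
  rw [map_mul, map_mul, map_inv, MonoidHom.mem_ker.1 hg.2, mul_one, mul_inv_cancel]

omit [Finite K] in
theorem conj_iff_VMain {z : ProjGenLinGroup (Fin n) K} (hz : z ∈ Pr (GU n σ))
    (a : ProjGenLinGroup (Fin n) K) : a ∈ PU n σ ↔ MulAut.conj z a ∈ PU n σ := by
  refine ⟨conj_mem_VMain hz a, fun h => ?_⟩
  have h1 := conj_mem_VMain (inv_mem hz) _ h
  have e : z⁻¹ * MulAut.conj z a * z⁻¹⁻¹ = a := by rw [MulAut.conj_apply]; group
  rwa [e] at h1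

theorem act_mem_VMain (q : RingAut K × ℤˣ) (a : ProjGenLinGroup (Fin n) K) (ha : a ∈ PU n σ) :
    act n K q a ∈ PU n σ := by
  obtain ⟨g, hg, rfl⟩ := ha
  rw [act_mk]
  exact Subgroup.mem_map_of_mem _ ⟨algu_TFin _ _ _ hg.1, alsg_TFin _ _ hg.2⟩

omit [Finite K] in
theorem dg_gu_VMain {d : Fin n → Kˣ} (hd : ∀ i, (d i : K) * σ (d i) = 1) : dg d ∈ GU n σ := by
  rw [gu_iff]
  show ((diagonal fun i => (d i : K)).map σ)ᵀ * (diagonal fun i => (d i : K)) = 1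
  rw [diagonal_map (map_zero σ), diagonal_transpose, diagonal_mul_diagonal, ← diagonal_one]
  congr 1
  funext i
  rw [mul_comm, hd]

theorem std_fix (h2 : (2 : K) ≠ 0) (hq : 49 ≤ Nat.card K) (hn : Odd n) (h3 : 3 ≤ n)
    (hσ : σ * σ = 1) (h1 : σ ≠ 1) (hφ : Au (PU n σ) φ) (hE : ∀ i, φ (es K {i}) = es K {i}) :
    StdU σ φ := by
  obtain ⟨θ, t0, t1, t2, t3⟩ := exists_theta h2 hn h3 hσ h1 hφ hE
  obtain ⟨d, τ, hd, hθ⟩ := ftpg h2 h3 hσ t0 t1 t2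
  have hD := dg_gu_VMain hd
  let ψ : MulAut (ProjGenLinGroup (Fin n) K) :=
    MulAut.conj (ProjGenLinGroup.mk (dg d)) * act n K (τ, 1)
  have key : ∀ a v, hm σ v v ≠ 0 → Qr σ a v → φ a = ψ a := by
    intro a v hv ha
    obtain ⟨c, hc, e⟩ := hθ v ha.1
    have h4 := qr_smul hσ hc (qr_conj hD (qr_tw τ ha))
    have e1 : ((dg d : GL (Fin n) K) : Matrix (Fin n) (Fin n) K) *ᵥ (fun i => τ (v i)) =
        fun i => d i * τ (v i) := by
      funext i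
      exact mulVec_diagonal _ _ i
    rw [e1, ← e] at h4
    exact qr_uniq h2 (fun h5 => hv ((t1 v v ha.1 ha.1).2 h5)) (t3 a v hv ha) h4
  refine ⟨_, Subgroup.mem_map_of_mem _ hD, τ, fun a ha => ?_⟩
  show φ a = ψ a
  have h5 : a⁻¹ * ψ⁻¹ (φ a) = 1 := by
    refine cent_real h2 hq hn h3 hσ fun v hr hv => ?_
    have q1 := qr_rf h2 hr hv
    have m1 := qr_mem hn hσ q1
    have n1 : hm σ v v ≠ 0 := by
      rw [hm, funext hr, hv]
      exact one_ne_zero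
    obtain ⟨g, hg, rfl⟩ := ha
    have e1 := key _ _ (by rw [gu_hm hg.1]; exact n1) (qr_conj hg.1 q1)
    have ha : ProjGenLinGroup.mk g ∈ PU n σ := Subgroup.mem_map_of_mem _ hg
    rw [hφ.mul _ (mul_mem ha m1) _ (inv_mem ha), hφ.mul _ ha _ m1, hφ.inv ha, key _ _ n1 q1] at e1
    have e2 := congrArg (fun x => ψ⁻¹ x) e1
    simp only [map_mul, map_inv, MulAut.inv_apply, MulEquiv.symm_apply_apply] at e2
    simp only [MulAut.inv_apply]
    generalize ψ.symm (φ (ProjGenLinGroup.mk g)) = x at e2 ⊢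
    calc (ProjGenLinGroup.mk g)⁻¹ * x * ProjGenLinGroup.mk (rf v)
        = (ProjGenLinGroup.mk g)⁻¹ * (x * ProjGenLinGroup.mk (rf v) * x⁻¹) * x := by group
      _ = _ := by rw [e2]; group
  have h6 : ψ⁻¹ (φ a) = a := (inv_mul_eq_one.1 h5).symm
  conv_rhs => rw [← h6]
  rw [MulAut.apply_inv_self]

theorem aut_PSU (h2 : (2 : K) ≠ 0) (hq : 49 ≤ Nat.card K) (hn : Odd n) (h3 : 3 ≤ n)
    (hσ : σ * σ = 1) (h1 : σ ≠ 1) (hφ : Au (PU n σ) φ) : StdU σ φ := by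
  obtain ⟨y, hyU, hy⟩ := diag_U h2 hn hσ h1 hφ
  have m1 : (ProjGenLinGroup.mk y)⁻¹ ∈ Pr (GU n σ) := inv_mem (Subgroup.mem_map_of_mem _ hyU)
  refine stdU_conj m1 ?_
  have hφ1 := hφ.comp _ (conj_iff_VMain m1)
  obtain ⟨π, hπ⟩ := ext_L h2 hn h3 (es_memU hn) (fun r s h => es_conjU hn h) hφ1 fun i => by
    obtain ⟨s, hs⟩ := hy i
    refine ⟨s, ?_⟩
    rw [hs, MulAut.conj_apply]
    group
  obtain ⟨w, hwU, -, hw⟩ := perm_gu (σ := σ) π⁻¹
  have m2 : ProjGenLinGroup.mk w ∈ Pr (GU n σ) := Subgroup.mem_map_of_mem _ hwU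
  refine stdU_conj m2 (std_fix h2 hq hn h3 hσ h1 (hφ1.comp _ (conj_iff_VMain m2)) fun i => ?_)
  rw [hπ i, MulAut.conj_apply, es, ← map_inv, ← map_mul, ← map_mul, hw, Finset.map_singleton]
  simp [es]

theorem cmp_PSU (h2 : (2 : K) ≠ 0) (hq : 49 ≤ Nat.card K) (hn : Odd n) (h3 : 3 ≤ n)
    (hσ : σ * σ = 1) (h1 : σ ≠ 1) {G : Type} [Group G] {L : Subgroup G} (e : L ≃* PU n σ) :
    Cmp L (PU n σ) (GU n σ) ⊥ := by
  refine ⟨e, fun x hx hxx => ?_⟩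
  let c : MulAut L := L.normalizerMonoidHom ⟨x, hx⟩
  have hc : ∀ l : L, (c l : G) = x * l * x⁻¹ := fun l => rfl
  obtain ⟨φ, hφ, hv⟩ := au_equiv (e.symm.trans (c.trans e))
  have hv' : ∀ l : L, φ (e l) = e (c l) := fun l => by
    rw [hv]
    simp
  obtain ⟨_, ⟨Y, hY, rfl⟩, τ, h⟩ := aut_PSU h2 hq hn h3 hσ h1 hφ
  refine ⟨Y, hY, τ, ?_, 1, one_mem _, fun l l' hl g hg => ?_⟩
  · refine fix_U h2 hn h3 hσ (y := ProjGenLinGroup.mk Y * act n K (τ, 1) (ProjGenLinGroup.mk Y))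
      fun a ha => ?_
    obtain ⟨l, hl⟩ := e.surjective ⟨a, ha⟩
    have e1 : c (c l) = l := Subtype.ext (by
      rw [hc, hc, ← mul_assoc, ← mul_assoc, hxx, one_mul, mul_assoc, ← _root_.mul_inv_rev, hxx,
        inv_one, mul_one])
    have e2 : φ (φ (e l)) = e l := by rw [hv', hv', e1]
    rw [hl] at e2
    have e3 : φ (φ a) = a := e2
    rw [h _ (hφ.mem _ ha), h _ ha] at e3
    have e4 : ((τ * τ, 1) : RingAut K × ℤˣ) = (τ, 1) * (τ, 1) := Prod.ext rfl (mul_one _).symm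
    rw [e4, map_mul, MulAut.mul_apply]
    conv_rhs => rw [← e3]
    simp only [map_mul, map_inv]
    group
  · have e1 : l' = c l := Subtype.ext (hl.trans (hc l).symm)
    rw [e1, ← hv', h _ (e l).2, hg, act_mk, map_mul, map_mul, map_inv]

theorem elim_U {G : Type} [Group G] [Finite G] (hG : MinHyp 2 G) (hn : Odd n) (h3 : 3 ≤ n)
    (h2 : (2 : K) ≠ 0) {L : Subgroup G} (hL : L.IsSubnormal) (hs : IsSimpleGroup L) {q : ℕ}
    (hK : Nat.card K = q ^ 2) (hq : 100 * Nat.gcd (2 * n) (q + 1) ≤ q) (hσ : σ * σ = 1) (h1 : σ ≠ 1)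
    (e : L ≃* PU n σ) : HQ 2 (⊤ : Subgroup G) := by
  have hg : 0 < Nat.gcd (2 * n) (q + 1) := Nat.gcd_pos_of_pos_left _ (by omega)
  have h49 : 49 ≤ Nat.card K := by
    rw [hK]
    exact le_trans (by norm_num) (Nat.pow_le_pow_left (show 7 ≤ q by omega) 2)
  refine fin_core hG hL hs (Subgroup.map_mono inf_le_left) (fun p _ y hy => ?_)
    (fun x hx => cent_U h2 h49 hn h3 hσ h1 hx.1 (Subgroup.mem_bot.1 hx.2))
    (fun A hA _ hsq => pc_U h2 hn h3 hK hq hσ h1 A hA hsq) (cmp_PSU h2 h49 hn h3 hσ h1 e)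
  obtain ⟨g, hg, rfl⟩ := hy
  rw [act_mk]
  exact Subgroup.mem_map_of_mem _ (algu_TFin _ _ _ hg)

end Vale.Agent.P240
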