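import Vale.Agent.P240.V.Qr
import Vale.Agent.P240.U.DiagP

/-! P240 V/Blk (automorphisms of PSU, n odd; auxiliary names end with `_VBlk`). blk_U (compare U/Root): a = mk g, g unitary, g ^ p = scalar c; scale by μ with μ ^ p = c⁻¹ (bijective_frobenius; μ * σ μ = 1 since its p-th power is 1) so g ^ p = 1. lift_comm: g commutes with sg {k} for k not i, j, so row and column k vanish off the diagonal and g k k = 1. M = g - 1 is nilpotent (sub_pow_char_of_commute), trace zero, det g = 1 (its p-th power is 1) or M ^ 2 = 0; g⁻¹ = 1 - M gives conjugate transpose of M = -M: M i i = x, M j j = -x, M i j = y, M j i = -σ y, σ x = -x, x * x = y * σ y. x ≠ 0 as a ≠ 1; v = e i + l e j with l = -σ y / x, β = -x⁻¹. blk_props: g ^ m = 1 - m β⁻¹ • vecMulVec by induction. -/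

namespace Vale.Agent.P240

open Matrix

variable {n : ℕ} {K : Type} [Field K] {σ : RingAut K} {i j : Fin n} {r s : Finset (Fin n)}
  {φ : ProjGenLinGroup (Fin n) K → ProjGenLinGroup (Fin n) K} {a b : ProjGenLinGroup (Fin n) K}
  {u v w : Fin n → K}

theorem one_VBlk {p : ℕ} {G : Matrix (Fin n) (Fin n) K} (hp : (G - 1) ^ p = 0) {x : Fin n}
    (off : ∀ y, y ≠ x → G x y = 0) : G x x = 1 := by
  have key : ∀ m : ℕ, ((G - 1) ^ m) x x = (G x x - 1) ^ m := by
    intro m
    induction m with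
    | zero => simp
    | succ m ih =>
      rw [pow_succ', mul_apply, Finset.sum_eq_single x, ih, pow_succ', Matrix.sub_apply,
        one_apply_eq]
      · intro y _ hy
        rw [Matrix.sub_apply, off y hy, one_apply_ne hy.symm, sub_zero, zero_mul]
      · simp
  have := key p
  rw [hp, Matrix.zero_apply] at this
  exact sub_eq_zero.1 (eq_zero_of_pow_eq_zero this.symm)

theorem tr_VBlk (h2 : (2 : K) ≠ 0) (h : i ≠ j) {M : Matrix (Fin n) (Fin n) K} (hp : IsNilpotent M)
    (off : ∀ x, x ≠ i → x ≠ j → ∀ y, M x y = 0 ∧ M y x = 0) :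
    M j j = -M i i ∧ M i i * M i i + M i j * M j i = 0 := by
  have t1 := (Matrix.isNilpotent_trace_of_isNilpotent hp).eq_zero
  have t2 := (Matrix.isNilpotent_trace_of_isNilpotent
    ((Commute.refl M).isNilpotent_mul_left hp)).eq_zero
  rw [trace, Fintype.sum_eq_add i j h fun l hl => by
    rw [diag_apply, (off l hl.1 hl.2 l).1]] at t1
  rw [trace, Fintype.sum_eq_add i j h fun l hl => by
    rw [diag_apply, mul_apply]
    exact Finset.sum_eq_zero fun y _ => by rw [(off l hl.1 hl.2 y).1, zero_mul]] at t2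
  simp only [diag_apply, mul_apply] at t1 t2
  rw [Fintype.sum_eq_add i j h fun l hl => by rw [(off l hl.1 hl.2 i).1, mul_zero],
    Fintype.sum_eq_add i j h fun l hl => by rw [(off l hl.1 hl.2 j).1, mul_zero]] at t2
  refine ⟨by linear_combination t1, (mul_eq_zero.1 (?_ : (2 : K) * _ = 0)).resolve_left h2⟩
  linear_combination t2 + (M i i - M j j) * t1

theorem fin_VBlk (h : i ≠ j) (hσ : σ * σ = 1) {M : Matrix (Fin n) (Fin n) K}
    (off : ∀ x, x ≠ i → x ≠ j → ∀ y, M x y = 0 ∧ M y x = 0) (e1 : M j j = -M i i)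
    (e2 : M i i * M i i + M i j * M j i = 0) (e3 : σ (M i i) = -M i i) (e4 : σ (M j i) = -M i j)
    (h1 : M ≠ 0) : ∃ (v : Fin n → K) (β : K), v ≠ 0 ∧ β ≠ 0 ∧ β + σ β = 0 ∧ hm σ v v = 0 ∧
      M = -(β⁻¹ • vecMulVec v fun x => σ (v x)) := by
  have cas : ∀ N : Matrix (Fin n) (Fin n) K,
      (∀ x, x ≠ i → x ≠ j → ∀ y, N x y = 0 ∧ N y x = 0) → M i i = N i i → M i j = N i j →
      M j i = N j i → M j j = N j j → M = N := fun N o a1 a2 a3 a4 => by
    ext x y
    by_cases hx : x ≠ i ∧ x ≠ j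
    · rw [(off x hx.1 hx.2 y).1, (o x hx.1 hx.2 y).1]
    by_cases hy : y ≠ i ∧ y ≠ j
    · rw [(off y hy.1 hy.2 x).2, (o y hy.1 hy.2 x).2]
    rw [not_and_or, not_not, not_not] at hx hy
    rcases hx with rfl | rfl <;> rcases hy with rfl | rfl <;> assumption
  have x0 : M i i ≠ 0 := fun e => by
    have z0 : M j i = 0 := by
      by_contra hz
      have y0 : M i j = 0 := (mul_eq_zero.1 (by rw [← e2, e]; ring)).resolve_right hz
      rw [y0, neg_zero, map_eq_zero] at e4
      exact hz e4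
    rw [z0, map_zero, eq_comm, neg_eq_zero] at e4
    exact h1 (cas 0 (fun _ _ _ _ => ⟨rfl, rfl⟩) e e4 z0 (by rw [e1, e, neg_zero]; rfl))
  obtain ⟨v, vi, vj, vo⟩ : ∃ v : Fin n → K, v i = 1 ∧ v j = M j i / M i i ∧
      ∀ x, x ≠ i → x ≠ j → v x = 0 :=
    ⟨fun x => if x = i then 1 else if x = j then M j i / M i i else 0, by simp,
      by simp [h.symm], fun x a1 a2 => by simp [a1, a2]⟩
  have sj : σ (v j) = M i j / M i i := by rw [vj, map_div₀, e3, e4, neg_div_neg_eq]
  refine ⟨v, -(M i i)⁻¹, fun e => one_ne_zero (vi.symm.trans (congrFun e i)),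
    neg_ne_zero.2 (inv_ne_zero x0), by rw [map_neg, map_inv₀, e3, inv_neg]; ring, ?_,
    cas _ (fun x a1 a2 y => by simp [vecMulVec_apply, vo x a1 a2]) ?_ ?_ ?_ ?_⟩
  · rw [hm, dotProduct, Fintype.sum_eq_add i j h fun l hl => by rw [vo l hl.1 hl.2, zero_mul],
      sj, vi, vj, map_one]
    field_simp
    linear_combination e2
  all_goals simp only [Matrix.neg_apply, Matrix.smul_apply, vecMulVec_apply, smul_eq_mul, sj, vi,
    map_one, inv_neg, inv_inv]
  · ring
  · field_simp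
  · rw [vj]
    field_simp
  · rw [vj, e1]
    field_simp
    linear_combination -e2

theorem mat_VBlk (h2 : (2 : K) ≠ 0) (h : i ≠ j) (hσ : σ * σ = 1) {k : Fin n}
    (hk : k ≠ i ∧ k ≠ j) {p : ℕ} {G : Matrix (Fin n) (Fin n) K} (hp : (G - 1) ^ p = 0)
    (off : ∀ x, x ≠ i → x ≠ j → ∀ y, y ≠ x → G x y = 0 ∧ G y x = 0) {t : K}
    (hu : ∀ x y, ∑ l, σ (G l x) * G l y = t * (1 : Matrix (Fin n) (Fin n) K) x y) (h1 : G ≠ 1) :
    ∃ (v : Fin n → K) (β : K), v ≠ 0 ∧ β ≠ 0 ∧ β + σ β = 0 ∧ hm σ v v = 0 ∧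
      G = 1 - β⁻¹ • vecMulVec v fun x => σ (v x) := by
  have one : ∀ x, x ≠ i → x ≠ j → G x x = 1 := fun x a1 a2 =>
    one_VBlk hp fun y hy => (off x a1 a2 y hy).1
  have o : ∀ x, x ≠ i → x ≠ j → ∀ y, (G - 1) x y = 0 ∧ (G - 1) y x = 0 := fun x a1 a2 y => by
    by_cases hy : y = x
    · simp [hy, one x a1 a2]
    · simp [hy, Ne.symm hy, off x a1 a2 y hy]
  have t1 : t = 1 := by
    have := hu k k
    rw [Finset.sum_eq_single k, one k hk.1 hk.2] at this
    · simpa using this.symm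
    · intro y _ hy
      rw [(off k hk.1 hk.2 y hy).2, mul_zero]
    · simp
  obtain ⟨e1, e2⟩ := tr_VBlk h2 h ⟨p, hp⟩ o
  have u1 := hu i i
  have u2 := hu i j
  rw [Fintype.sum_eq_add i j h fun l hl => by rw [(off l hl.1 hl.2 i hl.1.symm).1, mul_zero],
    t1, one_apply_eq] at u1
  rw [Fintype.sum_eq_add i j h fun l hl => by rw [(off l hl.1 hl.2 j hl.2.symm).1, mul_zero],
    one_apply_ne h] at u2
  have d : G i i * G j j - G i j * G j i = 1 := by
    simp only [Matrix.sub_apply, one_apply_eq, one_apply_ne h, one_apply_ne h.symm] at e1 e2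
    linear_combination G i i * e1 - e2
  obtain ⟨v, β, a1, a2, a3, a4, a5⟩ := fin_VBlk h hσ o e1 e2 (by
    rw [← e1, Matrix.sub_apply, Matrix.sub_apply, one_apply_eq, one_apply_eq, map_sub, map_one]
    linear_combination G j j * u1 - G j i * u2 - σ (G i i) * d) (by
    rw [Matrix.sub_apply, Matrix.sub_apply, one_apply_ne h, one_apply_ne h.symm, sub_zero, sub_zero]
    linear_combination G i i * u2 - G i j * u1 - σ (G j i) * d) (sub_ne_zero.2 h1)
  exact ⟨v, β, a1, a2, a3, a4, by rw [sub_eq_add_neg, ← a5, add_sub_cancel]⟩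

theorem sq_VBlk (s : Finset (Fin n)) : sg K s * sg K s = 1 := by
  refine Units.ext ?_
  rw [Units.val_mul, sg_val, diagonal_mul_diagonal, Units.val_one, ← diagonal_one]
  congr 1
  funext x
  split_ifs <;> simp

theorem blk_U [Finite K] (h2 : (2 : K) ≠ 0) (hn : Odd n) (h3 : 3 ≤ n) (hσ : σ * σ = 1) {p : ℕ}
    [CharP K p] (h : i ≠ j) (ha : a ∈ PU n σ)
    (hc : ∀ k, k ≠ i → k ≠ j → a * es K {k} = es K {k} * a) (hp : a ^ p = 1) (h1 : a ≠ 1) :
    ∃ v, Qr σ a v := by
  have pp : Fact p.Prime := ⟨CharP.char_is_prime K p⟩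
  have : Nonempty (Fin n) := ⟨i⟩
  obtain ⟨g0, hg0, rfl⟩ := ha
  rw [← map_pow, ← ProjGenLinGroup.mk_one, ProjGenLinGroup.mk_eq_mk_iff] at hp
  obtain ⟨c, hp⟩ := hp
  obtain ⟨μ, hμ⟩ := (bijective_frobenius K p).2 c
  rw [frobenius_def] at hμ
  have μ0 : μ ≠ 0 := fun e => c.ne_zero (by rw [← hμ, e, zero_pow pp.out.ne_zero])
  have hμ' : Units.mk0 μ μ0 ^ p = c := Units.ext hμ
  obtain ⟨g, hg, gp, gv⟩ : ∃ g : GL (Fin n) K, ProjGenLinGroup.mk g0 = ProjGenLinGroup.mk g ∧
      g ^ p = 1 ∧ ∀ x y, g.1 x y = g0.1 x y * μ := by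
    refine ⟨g0 * GeneralLinearGroup.scalar (Fin n) (Units.mk0 μ μ0),
      ProjGenLinGroup.mk_eq_mk_iff.2 ⟨_, rfl⟩, ?_, fun x y => ?_⟩
    · rw [Commute.mul_pow (GeneralLinearGroup.scalar_commute _ g0).symm, ← map_pow, hμ', hp]
    · rw [Units.val_mul, GeneralLinearGroup.coe_scalar, scalar_apply, mul_diagonal]
      rfl
  rw [hg] at hc h1 ⊢
  obtain ⟨k, hk⟩ : ∃ k : Fin n, k ≠ i ∧ k ≠ j := by
    by_contra hn'
    have h4 : (Finset.univ : Finset (Fin n)) ⊆ {i, j} := fun x _ => by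
      by_contra hx
      rw [Finset.mem_insert, Finset.mem_singleton, not_or] at hx
      exact hn' ⟨x, hx⟩
    have h5 := (Finset.card_le_card h4).trans Finset.card_le_two
    rw [Finset.card_univ, Fintype.card_fin] at h5
    omega
  obtain ⟨v, β, a1, a2, a3, a4, a5⟩ := mat_VBlk (p := p) (G := g) (t := σ μ * μ) h2 h hσ hk
    (by rw [sub_pow_char_of_commute p (Commute.one_right _), one_pow, ← Units.val_pow_eq_pow_val,
      gp, Units.val_one, sub_self])
    (fun x x1 x2 y hy => by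
      have e := congrArg Units.val (lift_comm hn (sq_VBlk {x}) (hc x x1 x2).symm)
      rw [Units.val_mul, Units.val_mul, sg_val] at e
      have e1 := congrFun (congrFun e x) y
      have e2 := congrFun (congrFun e y) x
      rw [diagonal_mul, mul_diagonal] at e1 e2
      simp only [Finset.mem_singleton, hy, if_true, if_false, Units.val_neg, Units.val_one] at e1 e2
      constructor
      · refine (mul_eq_zero.1 (?_ : 2 * g.1 x y = 0)).resolve_left h2
        linear_combination -e1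
      · refine (mul_eq_zero.1 (?_ : 2 * g.1 y x = 0)).resolve_left h2
        linear_combination e2)
    (fun x y => by
      rw [← gu_iff.1 hg0.1, mul_apply, Finset.mul_sum]
      refine Finset.sum_congr rfl fun l _ => ?_
      rw [gv, gv, map_mul, transpose_apply, map_apply]
      ring)
    (fun e => h1 (by rw [show g = 1 from Units.ext e, map_one]))
  exact ⟨v, a1, β, g, a2, a3.trans a4.symm, fun e => absurd a4 e, a5, rfl⟩

theorem blk_props {p : ℕ} [CharP K p] (hij : i ≠ j) (h : Qr σ a w) (hw : hm σ w w = 0)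
    (hs : ∀ k, k ≠ i → k ≠ j → w k = 0) :
    (∀ k, k ≠ i → k ≠ j → a * es K {k} = es K {k} * a) ∧ a ^ p = 1 ∧ a ≠ 1 := by
  obtain ⟨w0, β, g, b0, -, -, gv, rfl⟩ := h
  have ge : ∀ x y, x ≠ y → g.1 x y = -(β⁻¹ * (w x * σ (w y))) := fun x y hxy => by
    rw [gv, Matrix.sub_apply, one_apply_ne hxy, zero_sub]
    rfl
  refine ⟨fun k k1 k2 => ?_, ?_, fun e => w0 ?_⟩
  · rw [es, ← map_mul, ← map_mul]
    refine congrArg _ (Units.ext ?_)
    rw [Units.val_mul, Units.val_mul, sg_val]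
    ext x y
    rw [diagonal_mul, mul_diagonal]
    by_cases hxy : x = y
    · rw [hxy, mul_comm]
    rw [ge x y hxy]
    by_cases hx : x = k
    · simp [hx, hs k k1 k2]
    by_cases hy : y = k
    · simp [hy, hs k k1 k2]
    simp [hx, hy]
  · have hN : vecMulVec w (fun x => σ (w x)) * vecMulVec w (fun x => σ (w x)) = 0 := by
      rw [vecMulVec_mul_vecMulVec, dotProduct_comm, show w ⬝ᵥ (fun x => σ (w x)) = 0 from hw]
      simp
    have key : ∀ m : ℕ, (g : Matrix (Fin n) (Fin n) K) ^ m = (1 : Matrix (Fin n) (Fin n) K) -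
        ((m : K) * β⁻¹) • vecMulVec w fun x => σ (w x) := by
      intro m
      induction m with
      | zero => simp
      | succ m ih =>
        rw [pow_succ, ih, gv, sub_mul, mul_sub, mul_sub, smul_mul_smul_comm, hN, one_mul, one_mul,
          mul_one, smul_zero, sub_zero, Nat.cast_succ, add_mul, add_smul, one_mul, sub_sub,
          add_comm]
    rw [← map_pow, show g ^ p = 1 from Units.val_injective ?_, map_one]
    rw [Units.val_pow_eq_pow_val, key, CharP.cast_eq_zero, zero_mul, zero_smul, sub_zero,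
      Units.val_one]
  · rw [← ProjGenLinGroup.mk_one, ProjGenLinGroup.mk_eq_mk_iff] at e
    obtain ⟨c, e⟩ := e
    have e0 := congrArg Units.val e
    rw [Units.val_mul, GeneralLinearGroup.coe_scalar, scalar_apply, Units.val_one] at e0
    have e1 := congrFun (congrFun e0 i) j
    rw [mul_diagonal,
      one_apply_ne hij, ge i j hij] at e1
    rw [hm, dotProduct, Fintype.sum_eq_add i j hij fun l hl => by
      rw [hs l hl.1 hl.2, zero_mul]] at hw
    have e2 : w i = 0 ∨ w j = 0 := by simpa [b0] using e1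
    have e3 : w i = 0 ∧ w j = 0 := by
      rcases e2 with e2 | e2
      · exact ⟨e2, by simpa [e2] using hw⟩
      · exact ⟨by simpa [e2] using hw, e2⟩
    funext x
    by_cases x1 : x = i
    · rw [x1]; exact e3.1
    by_cases x2 : x = j
    · rw [x2]; exact e3.2
    exact hs x x1 x2

end Vale.Agent.P240
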