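import Vale.Agent.P240.V.Qr

/-! P240 V/Com (automorphisms of PSU, n odd; auxiliary names end with `_VCom`). For n ≥ 3 there is x ≠ 0 with hm x v = 0 = hm x w (kernel of a linear map to K × K, LinearMap.ker_ne_bot_of_finrank_lt or exists_ne_zero via finrank); both matrices fix x, so the scalar in mk_eq_mk_iff is 1. qr_comm: commuting means hm w v • vecMulVec v (σ w) = hm v w • vecMulVec w (σ v); apply to Pi.single k 1 with v k ≠ 0. qr_iso: in the isotropic case g * g = 1 - 2 β⁻¹ • vecMulVec v (σ v) is not a scalar. -/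

namespace Vale.Agent.P240

open Matrix

variable {n : ℕ} {K : Type} [Field K] {σ : RingAut K} {i j : Fin n} {r s : Finset (Fin n)}
  {φ : ProjGenLinGroup (Fin n) K → ProjGenLinGroup (Fin n) K} {a b : ProjGenLinGroup (Fin n) K}
  {u v w : Fin n → K}

theorem mv_VCom (σ : RingAut K) (c : K) (v x : Fin n → K) :
    (1 - c • vecMulVec v fun i => σ (v i)) *ᵥ x = x - (c * hm σ x v) • v := by
  rw [sub_mulVec, one_mulVec, smul_mulVec]
  refine congrArg (fun t => x - t) ?_
  funext k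
  simp only [hm, mulVec, dotProduct, vecMulVec_apply, Pi.smul_apply, smul_eq_mul]
  rw [mul_assoc, Finset.sum_mul]
  refine congrArg (fun t => c * t) (Finset.sum_congr rfl fun l _ => ?_)
  ring

theorem sub_VCom (σ : RingAut K) (c : K) (x w v : Fin n → K) :
    hm σ (x - c • w) v = hm σ x v - c * hm σ w v := by
  simp only [hm, sub_dotProduct, smul_dotProduct, smul_eq_mul]

theorem l_VCom (σ : RingAut K) (c : K) (x v : Fin n → K) : hm σ (c • x) v = c * hm σ x v := by
  simp only [hm, smul_dotProduct, smul_eq_mul]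

theorem r_VCom (σ : RingAut K) (c : K) (x v : Fin n → K) : hm σ x (c • v) = σ c * hm σ x v := by
  simp only [hm, dotProduct, Pi.smul_apply, smul_eq_mul, map_mul, Finset.mul_sum]
  refine Finset.sum_congr rfl fun l _ => ?_
  ring

theorem ex_VCom (h3 : 3 ≤ n) (σ : RingAut K) (v w : Fin n → K) :
    ∃ x : Fin n → K, x ≠ 0 ∧ hm σ x v = 0 ∧ hm σ x w = 0 := by
  let f : (Fin n → K) →ₗ[K] K × K :=
    { toFun := fun x => (hm σ x v, hm σ x w)
      map_add' := fun x y => by simp only [hm, add_dotProduct, Prod.mk_add_mk]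
      map_smul' := fun c x => by simp only [l_VCom, RingHom.id_apply, Prod.smul_mk, smul_eq_mul] }
  have hk : LinearMap.ker f ≠ ⊥ := by
    refine LinearMap.ker_ne_bot_of_finrank_lt ?_
    rw [Module.finrank_prod, Module.finrank_self, Module.finrank_fin_fun]
    omega
  obtain ⟨x, hx, h0⟩ := Submodule.exists_mem_ne_zero_of_ne_bot hk
  have h1 : (hm σ x v, hm σ x w) = (0, 0) := hx
  exact ⟨x, h0, congrArg Prod.fst h1, congrArg Prod.snd h1⟩

theorem y_VCom (σ : RingAut K) (hv : v ≠ 0) : ∃ y : Fin n → K, hm σ y v ≠ 0 := by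
  obtain ⟨k, hk⟩ := Function.ne_iff.1 hv
  refine ⟨Pi.single k 1, ?_⟩
  simp only [hm, single_dotProduct, one_mul]
  exact fun e => hk (σ.injective (e.trans (map_zero σ).symm))

theorem eq_VCom {g g' : GL (Fin n) K} {x : Fin n → K} (h0 : x ≠ 0)
    (h : ProjGenLinGroup.mk g = ProjGenLinGroup.mk g')
    (h1 : (g : Matrix (Fin n) (Fin n) K) *ᵥ x = x) (h2 : (g' : Matrix (Fin n) (Fin n) K) *ᵥ x = x) :
    g = g' := by
  obtain ⟨c, hc⟩ := ProjGenLinGroup.mk_eq_mk_iff.1 h
  have e : (g' : Matrix (Fin n) (Fin n) K) = (c : K) • (g : Matrix (Fin n) (Fin n) K) := by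
    rw [← hc, Units.val_mul, GeneralLinearGroup.coe_scalar, scalar_apply,
      ← smul_one_eq_diagonal, Matrix.mul_smul, Matrix.mul_one]
  rw [e, smul_mulVec, h1] at h2
  have e1 : (c : K) = 1 := by
    have : ((c : K) - 1) • x = 0 := by rw [sub_smul, h2, one_smul, sub_self]
    exact sub_eq_zero.1 ((smul_eq_zero.1 this).resolve_right h0)
  refine Units.ext ?_
  rw [e, e1, one_smul]

theorem two_VCom (σ : RingAut K) (c d : K) (v w y : Fin n → K) :
    ((1 - c • vecMulVec v fun i => σ (v i)) * (1 - d • vecMulVec w fun i => σ (w i))) *ᵥ y =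
      y - (d * hm σ y w) • w - (c * hm σ y v) • v + (c * d * (hm σ y w * hm σ w v)) • v := by
  rw [← mulVec_mulVec, mv_VCom, mv_VCom, sub_VCom]
  funext k
  simp only [Pi.sub_apply, Pi.add_apply, Pi.smul_apply, smul_eq_mul]
  ring

theorem qr_comm (h3 : 3 ≤ n) (hσ : σ * σ = 1) (h : Qr σ a v) (h' : Qr σ b w) :
    a * b = b * a ↔ hm σ v w = 0 ∨ ∃ c : K, w = c • v := by
  obtain ⟨hv, β, g, hβ, -, -, hg, rfl⟩ := h
  obtain ⟨hw, γ, g', hγ, -, -, hg', rfl⟩ := h'
  rw [← map_mul, ← map_mul]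
  constructor
  · intro e
    obtain ⟨x, h0, hx, hx'⟩ := ex_VCom h3 σ v w
    have e1 : g * g' = g' * g := by
      refine eq_VCom h0 e ?_ ?_
      · rw [Units.val_mul, hg, hg', two_VCom, hx, hx']; simp
      · rw [Units.val_mul, hg, hg', two_VCom, hx, hx']; simp
    obtain ⟨y, hy⟩ := y_VCom σ hv
    have e2 := congrArg (fun t : GL (Fin n) K => (t : Matrix (Fin n) (Fin n) K) *ᵥ y) e1
    simp only [Units.val_mul, hg, hg', two_VCom] at e2
    by_cases hvw : hm σ v w = 0
    · exact Or.inl hvw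
    refine Or.inr ⟨hm σ y w * hm σ w v / (hm σ y v * hm σ v w), ?_⟩
    funext k
    have e3 := congrFun e2 k
    simp only [Pi.sub_apply, Pi.add_apply, Pi.smul_apply, smul_eq_mul] at e3 ⊢
    have e4 : β⁻¹ * γ⁻¹ * (hm σ y w * hm σ w v * v k - hm σ y v * hm σ v w * w k) = 0 := by
      linear_combination e3
    have e5 := (mul_eq_zero.1 e4).resolve_left (mul_ne_zero (inv_ne_zero hβ) (inv_ne_zero hγ))
    rw [div_mul_eq_mul_div, eq_div_iff (mul_ne_zero hy hvw)]
    linear_combination -e5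
  · intro e
    refine congrArg _ (Units.ext (Matrix.ext_of_mulVec_single fun k => ?_))
    rw [Units.val_mul, Units.val_mul, hg, hg', two_VCom, two_VCom]
    rcases e with e | ⟨c, rfl⟩
    · have e' : hm σ w v = 0 := by rw [← hm_symm hσ, e, map_zero]
      rw [e, e']
      funext l
      simp only [Pi.sub_apply, Pi.add_apply, Pi.smul_apply, smul_eq_mul]
      ring
    · funext l
      simp only [l_VCom, r_VCom, Pi.sub_apply, Pi.add_apply, Pi.smul_apply, smul_eq_mul]
      ring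

theorem qr_inj (h3 : 3 ≤ n) (h : Qr σ a v) (h' : Qr σ a w) : ∃ c : K, w = c • v := by
  obtain ⟨hv, β, g, hβ, -, -, hg, rfl⟩ := h
  obtain ⟨hw, γ, g', hγ, -, -, hg', e⟩ := h'
  obtain ⟨x, h0, hx, hx'⟩ := ex_VCom h3 σ v w
  have e1 : g = g' := by
    refine eq_VCom h0 e ?_ ?_
    · rw [hg, mv_VCom, hx]; simp
    · rw [hg', mv_VCom, hx']; simp
  obtain ⟨y, hy⟩ := y_VCom σ hw
  have e2 : (g : Matrix (Fin n) (Fin n) K) *ᵥ y = (g' : Matrix (Fin n) (Fin n) K) *ᵥ y := by rw [e1]
  rw [hg, hg', mv_VCom, mv_VCom] at e2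
  refine ⟨β⁻¹ * hm σ y v / (γ⁻¹ * hm σ y w), ?_⟩
  funext k
  have e3 := congrFun e2 k
  simp only [Pi.sub_apply, Pi.smul_apply, smul_eq_mul] at e3 ⊢
  rw [div_mul_eq_mul_div, eq_div_iff (mul_ne_zero (inv_ne_zero hγ) hy)]
  linear_combination e3

theorem qr_iso (h2 : (2 : K) ≠ 0) (h3 : 3 ≤ n) (h : Qr σ a v) : hm σ v v ≠ 0 ↔ a * a = 1 := by
  obtain ⟨hv, β, g, hβ, hs, hf, hg, rfl⟩ := h
  rw [← map_mul]
  constructor
  · intro e
    rw [hf e] at hs
    refine (congrArg _ (Units.ext (Matrix.ext_of_mulVec_single fun k => ?_))).trans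
      ProjGenLinGroup.mk_one
    rw [Units.val_mul, hg, two_VCom, Units.val_one, one_mulVec, ← hs]
    funext l
    simp only [Pi.sub_apply, Pi.add_apply, Pi.smul_apply, smul_eq_mul]
    field_simp
    ring
  · intro e hvv
    obtain ⟨x, h0, hx, -⟩ := ex_VCom h3 σ v v
    have e1 : g * g = 1 := by
      refine eq_VCom h0 (e.trans ProjGenLinGroup.mk_one.symm) ?_ ?_
      · rw [Units.val_mul, hg, two_VCom, hx]; simp
      · rw [Units.val_one, one_mulVec]
    obtain ⟨y, hy⟩ := y_VCom σ hv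
    have e2 := congrArg (fun t : GL (Fin n) K => (t : Matrix (Fin n) (Fin n) K) *ᵥ y) e1
    simp only [Units.val_mul, hg, two_VCom, Units.val_one, one_mulVec, hvv] at e2
    refine hv (funext fun k => ?_)
    have e3 := congrFun e2 k
    simp only [Pi.sub_apply, Pi.add_apply, Pi.smul_apply, smul_eq_mul] at e3
    have e4 : 2 * β⁻¹ * hm σ y v * v k = 0 := by linear_combination -e3
    exact (mul_eq_zero.1 e4).resolve_left (mul_ne_zero (mul_ne_zero h2 (inv_ne_zero hβ)) hy)

end Vale.Agent.P240
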