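import Vale.Agent.P240.U.Defs
import Vale.Agent.P240.T.Defs

/-! P240 V/Defs: automorphisms of PSU, definitions. -/

namespace Vale.Agent.P240

open Matrix

/-- The projective special unitary group. -/
abbrev PU (n : ℕ) {K : Type} [Field K] (σ : RingAut K) : Subgroup (ProjGenLinGroup (Fin n) K) :=
  Pr (GU n σ ⊓ SG n K)

/-- The hermitian form. -/
def hm {n : ℕ} {K : Type} [Field K] (σ : RingAut K) (v w : Fin n → K) : K :=
  v ⬝ᵥ fun i => σ (w i)

/-- `a` is the class of the unitary reflection in `v` (if `v` is not isotropic) or of a unitary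
transvection with centre `v` (if `v` is isotropic). -/
def Qr {n : ℕ} {K : Type} [Field K] (σ : RingAut K) (a : ProjGenLinGroup (Fin n) K)
    (v : Fin n → K) : Prop :=
  v ≠ 0 ∧ ∃ (β : K) (g : GL (Fin n) K), β ≠ 0 ∧ β + σ β = hm σ v v ∧ (hm σ v v ≠ 0 → σ β = β) ∧
    (g : Matrix (Fin n) (Fin n) K) = 1 - β⁻¹ • vecMulVec v (fun i => σ (v i)) ∧
    a = ProjGenLinGroup.mk g

end Vale.Agent.P240
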