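import Vale.Agent.P240.V.Qr

/-! P240 V/Wit (automorphisms of PSU, n odd; auxiliary names end with `_VWit`). wit_U: d = u - v, β = hm u d = N - hm u v satisfies β + σ β = hm d d; if β ≠ 0 take qr_gl for d, it maps u to v; otherwise use -v. norm_surj: fix_TSub, σ x = x ^ q, and FiniteField.norm_surjective or a generator of the cyclic unit group. move1, move2: correct the determinant δ (δ * σ δ = 1 by al_det) with dg (δ⁻¹ at the place i), aldg_TCent. move2: v i ≠ 0, u = v - v i • e i has norm -(v i * σ (v i)) ≠ 0; take j ≠ i (it exists since u ≠ 0), c with the norm of u, and wit_U for c • e j and u, which fixes e i. -/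

namespace Vale.Agent.P240

open Matrix

variable {n : ℕ} {K : Type} [Field K] {σ : RingAut K} {i j : Fin n} {r s : Finset (Fin n)}
  {φ : ProjGenLinGroup (Fin n) K → ProjGenLinGroup (Fin n) K} {a b : ProjGenLinGroup (Fin n) K}
  {u v w : Fin n → K}

theorem subr_VWit (a v w : Fin n → K) : hm σ a (v - w) = hm σ a v - hm σ a w := by
  simp [hm, dotProduct, mul_sub, Finset.sum_sub_distrib]

theorem subl_VWit (a v w : Fin n → K) : hm σ (v - w) a = hm σ v a - hm σ w a :=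
  sub_dotProduct _ _ _

theorem negr_VWit (a v : Fin n → K) : hm σ a (-v) = -hm σ a v := by
  simp [hm, dotProduct]

theorem negl_VWit (a v : Fin n → K) : hm σ (-v) a = -hm σ v a :=
  neg_dotProduct _ _

theorem smr_VWit (a : Fin n → K) (c : K) (i : Fin n) :
    hm σ a (c • Pi.single i 1) = a i * σ c := by
  rw [hm, dotProduct, Finset.sum_eq_single i (fun k _ hk => by simp [Pi.single_eq_of_ne hk])
    (fun h => absurd (Finset.mem_univ i) h)]
  simp

theorem sml_VWit (a : Fin n → K) (c : K) (i : Fin n) :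
    hm σ (c • Pi.single i 1) a = c * σ (a i) := by
  rw [hm, smul_dotProduct, single_dotProduct, one_mul, smul_eq_mul]

theorem rf_VWit (hσ : σ * σ = 1) (h : hm σ v v = hm σ u u) (h0 : hm σ u u - hm σ u v ≠ 0) :
    ∃ g ∈ GU n σ, (g : Matrix (Fin n) (Fin n) K) *ᵥ u = v ∧
      ∀ x, hm σ x u = 0 → hm σ x v = 0 → (g : Matrix (Fin n) (Fin n) K) *ᵥ x = x := by
  obtain ⟨g, hg, e⟩ := qr_gl (v := u - v) hσ h0 (by
    rw [map_sub, hm_symm hσ, hm_symm hσ, subl_VWit, subr_VWit, subr_VWit, h]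
    ring)
  have h1 : ∀ x, (g : Matrix (Fin n) (Fin n) K) *ᵥ x =
      x - ((hm σ u u - hm σ u v)⁻¹ * (hm σ x u - hm σ x v)) • (u - v) := fun x => by
    rw [e, sub_mulVec, one_mulVec, smul_mulVec, vecMulVec_mulVec, op_smul_eq_smul, smul_smul,
      ← subr_VWit x, dotProduct_comm]
    rfl
  refine ⟨g, hg, ?_, fun x a b => ?_⟩
  · rw [h1, inv_mul_cancel₀ h0, one_smul, sub_sub_cancel]
  · rw [h1, a, b, sub_self, mul_zero, zero_smul, sub_zero]

theorem wit_U (h2 : (2 : K) ≠ 0) (hσ : σ * σ = 1) (hu : hm σ u u ≠ 0) (h : hm σ v v = hm σ u u) :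
    ∃ g ∈ GU n σ, ((g : Matrix (Fin n) (Fin n) K) *ᵥ u = v ∨ (g : Matrix (Fin n) (Fin n) K) *ᵥ u = -v) ∧
      ∀ x, hm σ x u = 0 → hm σ x v = 0 → (g : Matrix (Fin n) (Fin n) K) *ᵥ x = x := by
  by_cases h0 : hm σ u u - hm σ u v = 0
  · obtain ⟨g, hg, a, b⟩ := rf_VWit (u := u) (v := -v) hσ
      (by rw [negr_VWit, negl_VWit, neg_neg, h]) (by
        rw [negr_VWit, ← sub_eq_zero.1 h0, sub_neg_eq_add, ← two_mul]
        exact mul_ne_zero h2 hu)
    exact ⟨g, hg, Or.inr a, fun x c d => b x c (by rw [negr_VWit, d, neg_zero])⟩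
  · obtain ⟨g, hg, a, b⟩ := rf_VWit hσ h h0
    exact ⟨g, hg, Or.inl a, b⟩

theorem norm_surj [Finite K] (hσ : σ * σ = 1) (h1 : σ ≠ 1) {N : K} (hN : σ N = N) :
    ∃ c : K, c * σ c = N := by
  obtain ⟨F, a, b, c⟩ := fix_TSub hσ h1
  obtain ⟨x, hx⟩ := FiniteField.norm_surjective F K ⟨N, (a N).2 hN⟩
  have h := FiniteField.algebraMap_norm_eq_pow (K := F) (x := x)
  have h3 : 1 < Nat.card F := Finite.one_lt_card
  have h4 : (Nat.card K - 1) / (Nat.card F - 1) = Nat.card F + 1 := by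
    rw [b, ← one_pow 2, Nat.sq_sub_sq, one_pow, Nat.mul_div_cancel _ (Nat.sub_pos_of_lt h3)]
  rw [hx, h4, pow_succ'] at h
  exact ⟨x, by rw [c]; exact h.symm⟩

theorem cor_VWit {g : GL (Fin n) K} (hg : g ∈ GU n σ) (i : Fin n) :
    ∃ z ∈ GU n σ ⊓ SG n K, ∃ d : Fin n → K, (∀ k, d k ≠ 0) ∧ ∀ x : Fin n → K,
      (g : Matrix (Fin n) (Fin n) K) *ᵥ x = (z : Matrix (Fin n) (Fin n) K) *ᵥ fun k => d k * x k := by
  have h1 : σ (g : Matrix (Fin n) (Fin n) K).det * (g : Matrix (Fin n) (Fin n) K).det = 1 := by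
    have h := congrArg det (gu_iff.1 hg)
    rw [det_mul, det_transpose, det_one] at h
    rw [RingEquiv.map_det]
    exact h
  obtain ⟨δ, hδ⟩ : ∃ δ : Kˣ, δ = GeneralLinearGroup.det g := ⟨_, rfl⟩
  have h2 : σ (δ : K) * δ = 1 := by rw [hδ]; exact h1
  have h3 : ∀ d : Fin n → Kˣ, (dg d : Matrix (Fin n) (Fin n) K) = diagonal fun k => (d k : K) :=
    fun _ => rfl
  refine ⟨g * dg fun k => if k = i then δ⁻¹ else 1, ⟨(GU n σ).mul_mem hg (gu_iff.2 ?_), ?_⟩,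
    fun k => if k = i then δ else 1, fun k => ?_, fun x => ?_⟩
  · rw [h3, diagonal_map (map_zero σ), diagonal_transpose, diagonal_mul_diagonal, ← diagonal_one]
    refine congrArg diagonal (funext fun k => ?_)
    split_ifs
    · rw [Units.val_inv_eq_inv_val, map_inv₀, ← mul_inv, h2, inv_one]
    · rw [Units.val_one, map_one, one_mul]
  · refine MonoidHom.mem_ker.2 ?_
    have h4 : GeneralLinearGroup.det (dg fun k => if k = i then δ⁻¹ else 1) = δ⁻¹ := by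
      refine Units.ext ?_
      rw [GeneralLinearGroup.val_det_apply, h3, det_diagonal, ← Units.coe_prod]
      simp
    rw [map_mul, h4, ← hδ, mul_inv_cancel]
  · by_cases h : k = i <;> simp [h]
  · rw [Units.val_mul, ← mulVec_mulVec, h3]
    refine congrArg _ (funext fun k => ?_)
    rw [mulVec_diagonal]
    by_cases h : k = i <;> simp [h]

theorem ax_VWit [Finite K] (h2 : (2 : K) ≠ 0) (hσ : σ * σ = 1) (h1 : σ ≠ 1) (hv : hm σ v v ≠ 0)
    (j : Fin n) : ∃ g ∈ GU n σ, ∃ c : K, c ≠ 0 ∧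
      (g : Matrix (Fin n) (Fin n) K) *ᵥ (c • Pi.single j 1) = v ∧
      ∀ x, x j = 0 → hm σ x v = 0 → (g : Matrix (Fin n) (Fin n) K) *ᵥ x = x := by
  obtain ⟨c, hc⟩ := norm_surj hσ h1 (hm_symm hσ v v)
  have h3 : hm σ (c • Pi.single j 1) (c • Pi.single j 1) = hm σ v v := by
    rw [smr_VWit, ← hc]
    simp
  have h0 : c ≠ 0 := fun h => hv (by rw [← hc, h, zero_mul])
  obtain ⟨g, hg, a, b⟩ := wit_U h2 hσ (h3.trans_ne hv) h3.symm
  have h4 : ∀ x, x j = 0 → hm σ x v = 0 → (g : Matrix (Fin n) (Fin n) K) *ᵥ x = x :=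
    fun x e f => b x (by rw [smr_VWit, e, zero_mul]) f
  rcases a with a | a
  · exact ⟨g, hg, c, h0, a, h4⟩
  · exact ⟨g, hg, -c, neg_ne_zero.2 h0, by rw [neg_smul, mulVec_neg, a, neg_neg], h4⟩

theorem move1 [Finite K] (h2 : (2 : K) ≠ 0) (hσ : σ * σ = 1) (h1 : σ ≠ 1) (hv : hm σ v v ≠ 0)
    (i : Fin n) : ∃ z ∈ GU n σ ⊓ SG n K, ∃ c : K, c ≠ 0 ∧
      v = c • (z : Matrix (Fin n) (Fin n) K) *ᵥ Pi.single i 1 := by
  obtain ⟨g, hg, c, h0, a, -⟩ := ax_VWit h2 hσ h1 hv i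
  obtain ⟨z, hz, d, hd, e⟩ := cor_VWit hg i
  refine ⟨z, hz, d i * c, mul_ne_zero (hd i) h0, ?_⟩
  rw [← a, e, ← mulVec_smul]
  refine congrArg _ (funext fun k => ?_)
  by_cases h : k = i
  · simp [h]
  · simp [Pi.single_eq_of_ne h]

theorem move2 [Finite K] (h2 : (2 : K) ≠ 0) (hσ : σ * σ = 1) (h1 : σ ≠ 1) (h0 : v ≠ 0)
    (hv : hm σ v v = 0) : ∃ z ∈ GU n σ ⊓ SG n K, ∃ i j : Fin n, i ≠ j ∧ ∃ w : Fin n → K,
      (∀ k, k ≠ i → k ≠ j → w k = 0) ∧ v = (z : Matrix (Fin n) (Fin n) K) *ᵥ w := by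
  obtain ⟨i, hi⟩ := Function.ne_iff.1 h0
  have hi' : v i ≠ 0 := hi
  have h3 : (v - v i • (Pi.single i 1 : Fin n → K)) i = 0 := by simp
  have h4 : hm σ (v - v i • Pi.single i 1) (v - v i • Pi.single i 1) ≠ 0 := by
    rw [subr_VWit, smr_VWit, h3, zero_mul, sub_zero, subl_VWit, sml_VWit, hv, zero_sub]
    exact neg_ne_zero.2 (mul_ne_zero hi' ((_root_.map_ne_zero σ).2 hi'))
  have h5 : v - v i • (Pi.single i 1 : Fin n → K) ≠ 0 := fun h => h4 (by rw [h, hm, zero_dotProduct])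
  obtain ⟨j, hj⟩ := Function.ne_iff.1 h5
  have hij : i ≠ j := fun h => hj (h ▸ h3)
  obtain ⟨g, hg, c, -, a, b⟩ := ax_VWit h2 hσ h1 h4 j
  obtain ⟨z, hz, d, -, e⟩ := cor_VWit hg i
  have h6 := b (v i • Pi.single i 1) (by simp [Pi.single_eq_of_ne hij.symm])
    (by rw [sml_VWit, h3, map_zero, mul_zero])
  refine ⟨z, hz, i, j, hij, fun k => d k * (c • (Pi.single j 1 : Fin n → K) +
    v i • (Pi.single i 1 : Fin n → K)) k, fun k a b => ?_, ?_⟩
  · simp [Pi.single_eq_of_ne a, Pi.single_eq_of_ne b]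
  · rw [← e, mulVec_add, a, h6, sub_add_cancel]

end Vale.Agent.P240
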