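import Vale.Agent.P240.V.Com
import Vale.Agent.P240.V.Wit
import Vale.Agent.P240.V.Blk
import Vale.Agent.P240.U.Bas

/-! P240 V/Map (automorphisms of PSU, n odd; auxiliary names end with `_VMap`). qr_map: nonisotropic v: move1, qr_es, qr_conj, qr_smul, qr_uniq give a = z (es {i}) z⁻¹, so φ a = φ z (es {i}) (φ z)⁻¹, qr_conj. Isotropic v: move2, a1 = z⁻¹ a z satisfies Qr a1 w (qr_conj with z⁻¹), blk_props with p = ringChar K, blk_U for φ a1 (es {k} is in PU by qr_mem, qr_es), qr_conj. exists_theta: choose a v (qr_ex) and θ v (qr_map). Isotropy is preserved (qr_iso, Au.mul, Au.inj, Au.one). By qr_comm, (hm v w = 0 or proportional) is preserved in both directions; in the proportional isotropic case hm vanishes, in the proportional nonisotropic case the group elements agree (qr_smul, qr_uniq), use Au.inj and qr_inj. -/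

namespace Vale.Agent.P240

open Matrix

variable {n : ℕ} {K : Type} [Field K] {σ : RingAut K} {i j : Fin n} {r s : Finset (Fin n)}
  {φ : ProjGenLinGroup (Fin n) K → ProjGenLinGroup (Fin n) K} {a b : ProjGenLinGroup (Fin n) K}
  {u v w : Fin n → K}

theorem conj_VMap (hφ : Au (PU n σ) φ) {z : GL (Fin n) K} (hz : z ∈ GU n σ ⊓ SG n K)
    (ha : a ∈ PU n σ) (h : Qr σ (φ a) u) :
    ∃ v', Qr σ (φ (ProjGenLinGroup.mk z * a * (ProjGenLinGroup.mk z)⁻¹)) v' := by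
  have hZ : ProjGenLinGroup.mk z ∈ PU n σ := ⟨z, hz, rfl⟩
  obtain ⟨y, hy, e⟩ := hφ.mem _ hZ
  rw [hφ.mul _ (mul_mem hZ ha) _ (inv_mem hZ), hφ.mul _ hZ _ ha, hφ.inv hZ, ← e]
  exact ⟨_, qr_conj hy.1 h⟩

theorem smul_VMap (σ : RingAut K) (c : K) (v w : Fin n → K) :
    hm σ v (c • w) = σ c * hm σ v w := by
  simp only [hm, dotProduct, Pi.smul_apply, smul_eq_mul, map_mul, Finset.mul_sum]
  exact Finset.sum_congr rfl fun _ _ => by ring

theorem key_VMap (h2 : (2 : K) ≠ 0) (h3 : 3 ≤ n) (hσ : σ * σ = 1)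
    {a' b' : ProjGenLinGroup (Fin n) K} {v' w' : Fin n → K} (ha : Qr σ a v) (hb : Qr σ b w)
    (ha' : Qr σ a' v') (hb' : Qr σ b' w') (hc : a * b = b * a → a' * b' = b' * a')
    (hs : a' * a' = 1 → a * a = 1) (he : a' = b' → a = b) (h0 : hm σ v w = 0) :
    hm σ v' w' = 0 := by
  rcases (qr_comm h3 hσ ha' hb').1 (hc ((qr_comm h3 hσ ha hb).2 (Or.inl h0))) with h | ⟨c, rfl⟩
  · exact h
  rw [smul_VMap]
  by_contra hne
  have hc0 : c ≠ 0 := by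
    rintro rfl
    exact hb'.1 (zero_smul _ _)
  have q1 := qr_smul hσ hc0 ha'
  have s1 := (qr_iso h2 h3 ha').1 (right_ne_zero_of_mul hne)
  have e := he (qr_uniq h2 ((qr_iso h2 h3 q1).2 s1) q1 hb')
  rw [← e] at hb
  obtain ⟨d, rfl⟩ := qr_inj h3 ha hb
  have hd : d ≠ 0 := by
    rintro rfl
    exact hb.1 (zero_smul _ _)
  rw [smul_VMap] at h0
  exact mul_ne_zero ((map_ne_zero σ).2 hd) ((qr_iso h2 h3 ha).2 (hs s1)) h0

theorem qr_map [Finite K] (h2 : (2 : K) ≠ 0) (hn : Odd n) (h3 : 3 ≤ n) (hσ : σ * σ = 1) (h1 : σ ≠ 1)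
    (hφ : Au (PU n σ) φ) (hE : ∀ i, φ (es K {i}) = es K {i}) (h : Qr σ a v) : ∃ v', Qr σ (φ a) v' := by
  by_cases hv : hm σ v v = 0
  · obtain ⟨z, hz, i, j, hij, w, hw, hvw⟩ := move2 h2 hσ h1 h.1 hv
    have hQ := qr_conj ((GU n σ).inv_mem hz.1) h
    have e1 : ((z⁻¹ : GL (Fin n) K) : Matrix (Fin n) (Fin n) K) *ᵥ v = w := by
      rw [hvw, mulVec_mulVec, Units.inv_mul, one_mulVec]
    rw [e1] at hQ
    have hww : hm σ w w = 0 := by rw [← gu_hm hz.1 w w, ← hvw, hv]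
    have hm1 := qr_mem hn hσ hQ
    obtain ⟨c1, c2, c3⟩ := blk_props (p := ringChar K) hij hQ hww hw
    obtain ⟨t, ht⟩ := blk_U (p := ringChar K) h2 hn h3 hσ hij (hφ.mem _ hm1)
      (fun k hi hj => by
        have hk := qr_mem hn hσ (qr_es (σ := σ) h2 k)
        rw [← hE k, ← hφ.mul _ hm1 _ hk, ← hφ.mul _ hk _ hm1, c1 k hi hj])
      (by rw [← hφ.pow hm1, c2, hφ.one])
      fun e => c3 (hφ.inj _ hm1 1 (one_mem _) (e.trans hφ.one.symm))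
    have e2 : a = ProjGenLinGroup.mk z * (ProjGenLinGroup.mk z⁻¹ * a *
        (ProjGenLinGroup.mk z⁻¹)⁻¹) * (ProjGenLinGroup.mk z)⁻¹ := by
      rw [map_inv]
      group
    obtain ⟨t', ht'⟩ := conj_VMap hφ hz hm1 ht
    exact ⟨t', by rwa [← e2] at ht'⟩
  · obtain ⟨z, hz, c, hc, hvz⟩ := move1 h2 hσ h1 hv ⟨0, by omega⟩
    have hQ := qr_smul hσ hc (qr_conj hz.1 (qr_es (σ := σ) h2 ⟨0, by omega⟩))
    rw [← hvz] at hQ
    rw [qr_uniq h2 hv h hQ]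
    refine conj_VMap (u := Pi.single ⟨0, by omega⟩ 1) hφ hz
      (qr_mem hn hσ (qr_es (σ := σ) h2 ⟨0, by omega⟩)) ?_
    rw [hE]
    exact qr_es h2 _

theorem exists_theta [Finite K] (h2 : (2 : K) ≠ 0) (hn : Odd n) (h3 : 3 ≤ n) (hσ : σ * σ = 1)
    (h1 : σ ≠ 1) (hφ : Au (PU n σ) φ) (hE : ∀ i, φ (es K {i}) = es K {i}) :
    ∃ θ : (Fin n → K) → Fin n → K, (∀ v, v ≠ 0 → θ v ≠ 0) ∧
      (∀ v w, v ≠ 0 → w ≠ 0 → (hm σ v w = 0 ↔ hm σ (θ v) (θ w) = 0)) ∧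
      (∀ i, ∃ c : K, θ (Pi.single i 1) = c • (Pi.single i 1 : Fin n → K)) ∧
      ∀ a v, hm σ v v ≠ 0 → Qr σ a v → Qr σ (φ a) (θ v) := by
  have hex : ∀ v : Fin n → K, ∃ a t, v ≠ 0 → Qr σ a v ∧ Qr σ (φ a) t := fun v => by
    by_cases hv : v = 0
    · exact ⟨1, 0, fun h => absurd hv h⟩
    · obtain ⟨a, ha⟩ := qr_ex h2 hσ h1 hv
      obtain ⟨t, ht⟩ := qr_map h2 hn h3 hσ h1 hφ hE ha
      exact ⟨a, t, fun _ => ⟨ha, ht⟩⟩
  choose A θ hA using hex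
  have h4 : ∀ a v, hm σ v v ≠ 0 → Qr σ a v → Qr σ (φ a) (θ v) := fun a v hv ha => by
    rw [qr_uniq h2 hv ha (hA v ha.1).1]
    exact (hA v ha.1).2
  refine ⟨θ, fun v hv => (hA v hv).2.1, fun v w hv hw => ?_, fun i => ?_, h4⟩
  · obtain ⟨a1, a2⟩ := hA v hv
    obtain ⟨b1, b2⟩ := hA w hw
    have ma := qr_mem hn hσ a1
    have mb := qr_mem hn hσ b1
    refine ⟨key_VMap h2 h3 hσ a1 b1 a2 b2 (fun e => ?_) (fun e => ?_) (hφ.inj _ ma _ mb),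
      key_VMap h2 h3 hσ a2 b2 a1 b1 (fun e => ?_) (fun e => ?_) (congrArg φ)⟩
    · rw [← hφ.mul _ ma _ mb, ← hφ.mul _ mb _ ma, e]
    · refine hφ.inj _ (mul_mem ma ma) 1 (one_mem _) ?_
      rw [hφ.mul _ ma _ ma, e, hφ.one]
    · refine hφ.inj _ (mul_mem ma mb) _ (mul_mem mb ma) ?_
      rw [hφ.mul _ ma _ mb, hφ.mul _ mb _ ma, e]
    · rw [← hφ.mul _ ma _ ma, e, hφ.one]
  · have hi : hm σ (Pi.single i 1 : Fin n → K) (Pi.single i 1) ≠ 0 := by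
      simp [hm]
    have h5 := h4 _ _ hi (qr_es h2 i)
    rw [hE] at h5
    exact qr_inj h3 (qr_es h2 i) h5

end Vale.Agent.P240
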