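import Vale.Agent.P240.V.Defs
import Vale.Agent.P240.T.AppU
import Vale.Agent.P240.T.Cent

/-! P240 V/Qr (automorphisms of PSU, n odd; auxiliary names end with `_VQr`). gu_iff: unfold al, gT. qr_gl: with M = vecMulVec v (σ v) one has M * M = hm v v • M (vecMulVec_mul_vecMulVec), the inverse of 1 - β⁻¹ • M is 1 - (σ β)⁻¹ • M, which is also its conjugate transpose. qr_ex: β = hm v v / 2, or β = x - σ x ≠ 0. qr_mem: mk_TAppU; the determinant is 1 - hm v v / β, that is 1 or -1 (det_one_add_replicateCol_mul_replicateRow, vecMulVec_eq). qr_conj: z * vecMulVec v (σ v) * z⁻¹ = vecMulVec (z v) (σ (z v)). qr_smul: β goes to β * c * σ c. qr_tw: act_mk, alv_TCent, ringAut_comm. -/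

namespace Vale.Agent.P240

open Matrix

variable {n : ℕ} {K : Type} [Field K] {σ : RingAut K} {i j : Fin n} {r s : Finset (Fin n)}
  {φ : ProjGenLinGroup (Fin n) K → ProjGenLinGroup (Fin n) K} {a b : ProjGenLinGroup (Fin n) K}
  {u v w : Fin n → K}

theorem gu_iff {g : GL (Fin n) K} : g ∈ GU n σ ↔
    ((g : Matrix (Fin n) (Fin n) K).map σ)ᵀ * (g : Matrix (Fin n) (Fin n) K) = 1 := by
  change al σ (-1) g = g ↔ _
  rw [neg_TAct, Units.ext_iff]
  exact (Units.inv_mul_eq_one (u := gT (GeneralLinearGroup.map (σ : K →+* K) g))).symm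

theorem map_mv_VQr (τ : RingAut K) (M : Matrix (Fin n) (Fin n) K) (v : Fin n → K) :
    (fun i => τ ((M *ᵥ v) i)) = M.map τ *ᵥ fun i => τ (v i) := by
  funext i
  simp [mulVec, dotProduct, map_sum]

theorem gu_hm {g : GL (Fin n) K} (hg : g ∈ GU n σ) (v w : Fin n → K) :
    hm σ ((g : Matrix (Fin n) (Fin n) K) *ᵥ v) ((g : Matrix (Fin n) (Fin n) K) *ᵥ w) = hm σ v w := by
  rw [hm, hm, map_mv_VQr, dotProduct_mulVec, ← mulVec_transpose, mulVec_mulVec, gu_iff.1 hg,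
    one_mulVec]

theorem hm_symm (hσ : σ * σ = 1) (v w : Fin n → K) : σ (hm σ v w) = hm σ w v := by
  simp [hm, dotProduct, map_sum, ss_TCent hσ, mul_comm]

theorem qr_gl (hσ : σ * σ = 1) {β : K} (h0 : β ≠ 0) (h : β + σ β = hm σ v v) : ∃ g ∈ GU n σ,
    (g : Matrix (Fin n) (Fin n) K) = 1 - β⁻¹ • vecMulVec v fun i => σ (v i) := by
  have h1 : σ β ≠ 0 := (map_ne_zero σ).2 h0
  have hM : (vecMulVec v fun i => σ (v i)) * (vecMulVec v fun i => σ (v i)) =
      (β + σ β) • vecMulVec v fun i => σ (v i) := by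
    rw [vecMulVec_mul_vecMulVec, vecMulVec_smul, h, hm, dotProduct_comm]
  have key : ∀ x y : K, x ≠ 0 → y ≠ 0 → x + y = β + σ β →
      (1 - x⁻¹ • vecMulVec v fun i => σ (v i)) * (1 - y⁻¹ • vecMulVec v fun i => σ (v i)) = 1 := by
    intro x y hx hy hxy
    rw [sub_mul, mul_sub, mul_sub, one_mul, one_mul, mul_one, smul_mul_smul_comm, hM, smul_smul,
      sub_sub, ← add_sub_assoc, ← add_smul, ← sub_smul, ← hxy]
    have e : y⁻¹ + x⁻¹ - x⁻¹ * y⁻¹ * (x + y) = 0 := by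
      field_simp
      ring
    rw [e, zero_smul, sub_zero]
  refine ⟨⟨_, _, key β (σ β) h0 h1 rfl, key (σ β) β h1 h0 (add_comm _ _)⟩, gu_iff.2 ?_, rfl⟩
  have e : ((1 - β⁻¹ • vecMulVec v fun i => σ (v i) : Matrix (Fin n) (Fin n) K).map σ)ᵀ =
      1 - (σ β)⁻¹ • vecMulVec v fun i => σ (v i) := by
    ext i j
    simp [vecMulVec_apply, one_apply, apply_ite σ, ss_TCent hσ, eq_comm, mul_comm]
  exact (congrArg (· * _) e).trans (key (σ β) β h1 h0 (add_comm _ _))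

theorem qr_ex (h2 : (2 : K) ≠ 0) (hσ : σ * σ = 1) (h1 : σ ≠ 1) (hv : v ≠ 0) : ∃ a, Qr σ a v := by
  obtain ⟨β, h0, h, h'⟩ : ∃ β : K, β ≠ 0 ∧ β + σ β = hm σ v v ∧ (hm σ v v ≠ 0 → σ β = β) := by
    by_cases hz : hm σ v v = 0
    · obtain ⟨s, hs⟩ : ∃ s, s - σ s ≠ 0 := by
        by_contra! h
        exact h1 (RingEquiv.ext fun s => (sub_eq_zero.1 (h s)).symm)
      refine ⟨s - σ s, hs, ?_, fun h => absurd hz h⟩
      rw [map_sub, ss_TCent hσ, hz]
      ring
    · have e : σ (hm σ v v / 2) = hm σ v v / 2 := by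
        rw [map_div₀, hm_symm hσ, map_ofNat]
      refine ⟨hm σ v v / 2, div_ne_zero hz h2, ?_, fun _ => e⟩
      rw [e]
      field_simp
      ring
  obtain ⟨g, -, hg⟩ := qr_gl hσ h0 h
  exact ⟨_, hv, β, g, h0, h, h', hg, rfl⟩

theorem qr_mem [Finite K] (hn : Odd n) (hσ : σ * σ = 1) (h : Qr σ a v) : a ∈ PU n σ := by
  obtain ⟨-, β, g, h0, h, h', hg, rfl⟩ := h
  obtain ⟨g', hU, hg'⟩ := qr_gl hσ h0 h
  obtain rfl : g' = g := Units.ext (hg'.trans hg.symm)
  refine mk_TAppU hn hU (Units.ext ?_)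
  have hd : ((GeneralLinearGroup.det g' : Kˣ) : K) = 1 - β⁻¹ * hm σ v v := by
    change (g' : Matrix (Fin n) (Fin n) K).det = _
    rw [hg, sub_eq_add_neg, ← neg_smul, ← smul_vecMulVec, vecMulVec_eq Unit,
      det_one_add_replicateCol_mul_replicateRow, dotProduct_smul, hm, dotProduct_comm, smul_eq_mul]
    ring
  rw [Units.val_mul, hd, Units.val_one]
  by_cases hz : hm σ v v = 0
  · rw [hz]
    ring
  · rw [← h, h' hz]
    field_simp
    ring

theorem qr_conj {z : GL (Fin n) K} (hz : z ∈ GU n σ) (h : Qr σ a v) :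
    Qr σ (ProjGenLinGroup.mk z * a * (ProjGenLinGroup.mk z)⁻¹) ((z : Matrix (Fin n) (Fin n) K) *ᵥ v) := by
  obtain ⟨hv, β, g, h0, h, h', hg, rfl⟩ := h
  refine ⟨fun e => hv (mulVec_injective_of_isUnit z.isUnit (e.trans (mulVec_zero _).symm)), β,
    z * g * z⁻¹, h0, by rwa [gu_hm hz], by rwa [gu_hm hz], ?_, by rw [map_mul, map_mul, map_inv]⟩
  have hi : ((z⁻¹ : GL (Fin n) K) : Matrix (Fin n) (Fin n) K) =
      ((z : Matrix (Fin n) (Fin n) K).map σ)ᵀ := Units.inv_eq_of_mul_eq_one_left (gu_iff.1 hz)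
  rw [Units.val_mul, Units.val_mul, hg, mul_sub, sub_mul, mul_one, Units.mul_inv, mul_smul_comm,
    smul_mul_assoc, mul_vecMulVec, vecMulVec_mul, hi, vecMul_transpose, map_mv_VQr]

theorem qr_smul (hσ : σ * σ = 1) {c : K} (hc : c ≠ 0) (h : Qr σ a v) : Qr σ a (c • v) := by
  obtain ⟨hv, β, g, h0, h, h', hg, rfl⟩ := h
  have hc' : σ c ≠ 0 := (map_ne_zero σ).2 hc
  have e : hm σ (c • v) (c • v) = hm σ v v * c * σ c := by
    simp only [hm, dotProduct, Pi.smul_apply, smul_eq_mul, map_mul, Finset.sum_mul]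
    exact Finset.sum_congr rfl fun i _ => by ring
  refine ⟨smul_ne_zero hc hv, β * c * σ c, g, mul_ne_zero (mul_ne_zero h0 hc) hc', ?_, fun hz => ?_,
    ?_, rfl⟩
  · rw [e, ← h, map_mul, map_mul, ss_TCent hσ]
    ring
  · have hz' : hm σ v v ≠ 0 := fun e' => hz (by rw [e, e', zero_mul, zero_mul])
    rw [map_mul, map_mul, ss_TCent hσ, h' hz']
    ring
  · rw [hg, sub_right_inj]
    ext i j
    simp only [Matrix.smul_apply, vecMulVec_apply, Pi.smul_apply, smul_eq_mul, map_mul]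
    field_simp

theorem qr_es (h2 : (2 : K) ≠ 0) (i : Fin n) : Qr σ (es K {i}) (Pi.single i 1) := by
  have e : σ (2⁻¹ : K) = 2⁻¹ := by rw [map_inv₀, map_ofNat]
  refine ⟨by simp, 2⁻¹, sg K {i}, inv_ne_zero h2, ?_, fun _ => e, ?_, rfl⟩
  · have e' : hm σ (Pi.single i 1 : Fin n → K) (Pi.single i 1) = 1 := by simp [hm]
    rw [e, e']
    field_simp
    ring
  · ext j k
    simp only [sg, dg, inv_inv, Matrix.sub_apply, Matrix.smul_apply, vecMulVec_apply,
      diagonal_apply, one_apply, Pi.single_apply, Finset.mem_singleton, smul_eq_mul]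
    by_cases hj : j = i
    · by_cases hk : k = i
      · simp [hj, hk]
        ring
      · simp [hj, hk, Ne.symm hk]
    · by_cases hk : j = k
      · subst hk
        simp [hj]
      · simp [hj, hk]

theorem qr_uniq (h2 : (2 : K) ≠ 0) (hv : hm σ v v ≠ 0) (h : Qr σ a v) (h' : Qr σ b v) : a = b := by
  obtain ⟨-, β, g, -, h1, h3, hg, rfl⟩ := h
  obtain ⟨-, β', g', -, h1', h3', hg', rfl⟩ := h'
  rw [h3 hv] at h1
  rw [h3' hv] at h1'
  obtain rfl : β = β' := mul_left_cancel₀ h2 (by linear_combination h1 - h1')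
  rw [Units.ext (hg.trans hg'.symm)]

theorem qr_rf (h2 : (2 : K) ≠ 0) (hr : ∀ i, σ (v i) = v i) (hv : v ⬝ᵥ v = 1) :
    Qr σ (ProjGenLinGroup.mk (rf v)) v := by
  have e : σ (2⁻¹ : K) = 2⁻¹ := by rw [map_inv₀, map_ofNat]
  have e' : (fun i => σ (v i)) = v := funext hr
  refine ⟨fun h0 => by simp [h0] at hv, 2⁻¹, rf v, inv_ne_zero h2, ?_, fun _ => e, ?_, rfl⟩
  · rw [e, hm, e', hv]
    field_simp
    ring
  · change rfm v = _
    rw [rfm, hv, e', inv_inv, div_one]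

theorem qr_tw [Finite K] (τ : RingAut K) (h : Qr σ a v) :
    Qr σ (act n K (τ, 1) a) fun i => τ (v i) := by
  obtain ⟨hv, β, g, h0, h, h', hg, rfl⟩ := h
  have hc : ∀ x, σ (τ x) = τ (σ x) := fun x => DFunLike.congr_fun (ringAut_comm σ τ) x
  have e : hm σ (fun i => τ (v i)) (fun i => τ (v i)) = τ (hm σ v v) := by
    simp [hm, dotProduct, map_sum, hc]
  refine ⟨fun e0 => hv (funext fun i => (map_eq_zero τ).1 (congrFun e0 i)), τ β, al τ 1 g,
    (map_ne_zero τ).2 h0, by rw [e, hc, ← map_add, h], fun hz => ?_, ?_, act_mk (τ, 1) g⟩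
  · rw [e] at hz
    rw [hc, h' ((map_ne_zero τ).1 hz)]
  · ext i j
    rw [alv_TCent, hg]
    simp [vecMulVec_apply, one_apply, apply_ite τ, hc]

end Vale.Agent.P240
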